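import Vale.Agent.P254.S.H151.Fin
import Vale.Agent.P254.H325.E1

/-! P254, equality case of the `(SP_0)` line (helper630), part A: regular potentials `V_k` whose laws
converge to `1_C e^{⟨c,x⟩}`, with covariance, entropy and `D`. -/

open MeasureTheory Set Matrix Filter Topology

namespace Vale.Agent.P254.Eq630

open R304 Eq657
open Vale.Agent.P227.M Vale.Agent.P254.S

variable {n : ℕ}

/-- the data of an approximation of `1_C e^{⟨c,x⟩}` by regular potentials -/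
structure RegApprox (C : Set (Fin n → ℝ)) (c : Fin n → ℝ) (V : ℕ → E n → ℝ) : Prop where
  reg : ∀ k, ∃ c' C' : ℝ, Reg (V k) c' C'
  ex : ∀ p : (Fin n → ℝ) → ℝ, PolyGrowth p →
    Tendsto (fun k => Ex (V k) fun x => p x.ofLp) atTop (𝓝 (Ef (limDens 0 c C) p))
  cov : Tendsto (fun k => covV (V k)) atTop (𝓝 (covF (limDens 0 c C)))
  dd : Tendsto (fun k => entV (V k) - 1 / 2 * Real.log (covV (V k)).det - n) atTop
    (𝓝 (DD (limDens 0 c C)))

theorem Ef_eq_Ex {V : E n → ℝ} {f : (Fin n → ℝ) → ℝ}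
    (hf : ∀ x : E n, f x.ofLp = Real.exp (-V x)) (p : (Fin n → ℝ) → ℝ) :
    Ef f p = Ex V fun x => p x.ofLp := by
  have e0 : ∀ g : (Fin n → ℝ) → ℝ, ∫ x, g x * f x = ∫ x : E n, g x.ofLp * Real.exp (-V x) := by
    intro g
    rw [← S5.integral_ofLp]
    exact integral_congr_ae (ae_of_all _ fun x => by simp only; rw [hf])
  have e1 : ∫ x, f x = ∫ x : E n, Real.exp (-V x) := by
    have := e0 fun _ => 1
    simpa using this
  unfold Ef Ex
  rw [e0, e1]

theorem covF_eq_covV {V : E n → ℝ} {f : (Fin n → ℝ) → ℝ}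
    (hf : ∀ x : E n, f x.ofLp = Real.exp (-V x)) : covF f = covV V := by
  ext i j
  unfold covF covV
  rw [of_apply, Ef_eq_Ex hf, Ef_eq_Ex hf, Ef_eq_Ex hf]

/-- **part A** -/
theorem exists_regApprox {C : Set (Fin n → ℝ)} {c : Fin n → ℝ} {a b : ℝ} (hA : Adm C c a b) :
    ∃ V : ℕ → E n → ℝ, RegApprox C c V := by
  have hB : (0 : Matrix (Fin n) (Fin n) ℝ).PosSemidef := PosSemidef.zero
  obtain ⟨K, s, M, hK1, hK2, hK3, hK4, hs, hs1, hs0, hdom⟩ :=
    exists_dom hB hA.closed hA.convex hA.int hA.ha hA.dec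
  have hgood := good_limDens hB hA.closed hA.int hA.ha hA.dec
  have hZ := hgood.mass_pos.ne'
  have e1 : ∀ k x, (dens (0 : Matrix (Fin n) (Fin n) ℝ) c (K k) (s k) (s k + s k)) x =
      (GG n (s k))⁻¹ * (tilt ((s k) • (1 : Matrix (Fin n) (Fin n) ℝ)) c x *
        nice (K k) (s k) (s k) x) := by
    intro k x
    rw [dens_eq, zero_add]
  have hsp : ∀ k, ((s k) • (1 : Matrix (Fin n) (Fin n) ℝ)).PosSemidef := fun k =>
    PosSemidef.one.smul (hs k).le
  obtain ⟨f, hf⟩ : ∃ f : ℕ → (Fin n → ℝ) → ℝ, ∀ k, f k = fun x =>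
      tilt ((s k) • (1 : Matrix (Fin n) (Fin n) ℝ)) c x * nice (K k) (s k) (s k) x :=
    ⟨_, fun _ => rfl⟩
  have e2 : ∀ k, f k = fun x => GG n (s k) *
      (dens (0 : Matrix (Fin n) (Fin n) ℝ) c (K k) (s k) (s k + s k)) x := by
    intro k
    funext x
    rw [hf, e1, mul_inv_cancel_left₀ (GG_pos (hs k)).ne']
  have hV : ∀ k, ∀ x : E n, f k x.ofLp = Real.exp (-(S5.pot (K k) (s k) (s k)
      ((s k) • (1 : Matrix (Fin n) (Fin n) ℝ)) c) x) := by
    intro k x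
    obtain ⟨C', hw⟩ := Vale.Agent.P254.Fr.wt_wK (hK1 k) (hK3 k) (hs k) (hs k)
    rw [S5.exp_neg_pot hw.pos _ c x, hf, X.Top.nice_eq_wK]
    rfl
  refine ⟨fun k => S5.pot (K k) (s k) (s k) ((s k) • (1 : Matrix (Fin n) (Fin n) ℝ)) c, ?_, ?_,
    ?_, ?_⟩
  · intro k
    exact S5.N710.regPot n (K k) (hK1 k) (hK2 k).convex (hK3 k) (s k) (s k) (hs k) (hs k) _
      (hsp k) c
  · intro p hp
    have h1 := hdom.tendsto_Ef hZ hp
    refine h1.congr fun k => ?_
    rw [← Ef_eq_Ex (hV k), e2, Ef_smul (GG_pos (hs k)).ne']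
  · refine (hdom.tendsto_cov hZ).congr fun k => ?_
    rw [← covF_eq_covV (hV k), e2, covF_smul (GG_pos (hs k)).ne']
  · refine (hdom.tendsto_DD hZ hgood.det_pos.ne').congr fun k => ?_
    rw [← S151.DD_eq_of _ (f k) (hV k), e2]
    have hg := good_dens hB hA.closed (hA.int.mono interior_subset) hA.ha hA.dec
      (hK1 k).measurableSet (hK3 k) (hK4 k) (hs k) (hs1 k) (t := s k + s k)
      (by have := hs k; linarith)
    rw [DD_smul (GG_pos (hs k)) hg.int1 ?_ hg.mass_pos.ne']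
    exact ent_integrable a _ hA.ha (by positivity) hg.meas hg.nn hg.le

end Vale.Agent.P254.Eq630
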