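import Vale.Agent.P254.H630.EqA

/-! P254, equality case of the `(SP_0)` line (helper630), part C: if an affine image of
`1_C e^{⟨c,x⟩}` is the law of `O⁻¹ (t ((O z)_i))_i`, `z` standard Gaussian, `t : ℝ → (0, ∞)` continuous and
onto, then `C` is an affine orthant. -/

open MeasureTheory Set Matrix Filter Topology

namespace Vale.Agent.P254.Eq630

open R304 Eq657
open Vale.Agent.P227.M Vale.Agent.P254.S

variable {n : ℕ}

/-- the integral of a continuous nonnegative function which is positive at a point of `int C` -/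
theorem Ef_pos {C : Set (Fin n → ℝ)} {c : Fin n → ℝ} {a b : ℝ} (hA : Adm C c a b)
    {g : (Fin n → ℝ) → ℝ} (hg : Continuous g) (h0 : ∀ x, 0 ≤ g x) {M : ℝ} (hM : ∀ x, g x ≤ M)
    (he : Ef (limDens 0 c C) g = 0) {x : Fin n → ℝ} (hx : x ∈ C) : g x = 0 := by
  have hgood := good_limDens (PosSemidef.zero (n := Fin n)) hA.closed hA.int hA.ha hA.dec
  have hZ := hgood.mass_pos
  have h1 : ∫ x, g x * limDens 0 c C x = 0 := by
    unfold Ef at he
    rcases div_eq_zero_iff.1 he with h | h
    · exact h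
    · exact absurd h hZ.ne'
  have hnn : ∀ x, 0 ≤ limDens 0 c C x := hgood.nn
  have hpg : PolyGrowth g := by
    refine ⟨hg.aestronglyMeasurable, M, 0, fun x => ?_⟩
    rw [abs_of_nonneg (h0 x), pow_zero, mul_one]
    exact hM x
  have h2 : (fun x => g x * limDens 0 c C x) =ᵐ[volume] 0 :=
    (integral_eq_zero_iff_of_nonneg (fun x => mul_nonneg (h0 x) (hnn x)) (hgood.int hpg)).1 h1
  -- vanishing on the interior
  have h3 : ∀ y ∈ interior C, g y = 0 := by
    intro y hy
    by_contra hne
    have hU : IsOpen (interior C ∩ {z | g z ≠ 0}) :=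
      isOpen_interior.inter (isOpen_ne_fun hg continuous_const)
    have hpos : 0 < volume (interior C ∩ {z | g z ≠ 0}) := hU.measure_pos _ ⟨y, hy, hne⟩
    have hsub : interior C ∩ {z | g z ≠ 0} ⊆ {z | ¬ (g z * limDens 0 c C z = (0 : (Fin n → ℝ) → ℝ) z)} := by
      rintro z ⟨hz1, hz2⟩ hz3
      have h4 : limDens 0 c C z ≠ 0 := by
        unfold limDens
        rw [indicator_of_mem (interior_subset hz1)]
        unfold tilt
        exact (Real.exp_pos _).ne'
      exact (mul_ne_zero hz2 h4) hz3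
    exact hpos.ne' (measure_mono_null hsub h2)
  have h4 : x ∈ closure (interior C) := by
    rw [hA.convex.closure_interior_eq_closure_of_nonempty_interior hA.int]
    exact subset_closure hx
  have h5 : closure (interior C) ⊆ {z | g z = 0} :=
    closure_minimal h3 (isClosed_eq hg continuous_const)
  exact h5 h4

/-- a continuous nonnegative bounded function with zero Gaussian mean vanishes -/
theorem ExQ_pos {g : E n → ℝ} (hg : Continuous g) (h0 : ∀ x, 0 ≤ g x) {M : ℝ}
    (hM : ∀ x, g x ≤ M) (he : Ex Q g = 0) (z : E n) : g z = 0 := by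
  have hi : Integrable fun z : E n => Real.exp (-Q z) := by
    have h := GaussianFourier.integrable_cexp_neg_mul_sq_norm_add_of_euclideanSpace (ι := Fin n)
      (b := (1 / 2 : ℂ)) (by norm_num) 0 0
    have h2 := h.norm
    refine h2.congr (Eventually.of_forall fun z => ?_)
    simp only
    rw [Complex.norm_exp]
    congr 1
    unfold Q
    have e : (-(1 / 2 : ℂ) * (‖z‖ : ℂ) ^ 2 + 0 * (inner ℝ (0 : E n) z : ℂ)) =
        ((-(‖z‖ ^ 2 / 2) : ℝ) : ℂ) := by
      push_cast
      ring
    rw [e, Complex.ofReal_re]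
  have hZ : 0 < ∫ z : E n, Real.exp (-Q z) := by
    refine (integral_pos_iff_support_of_nonneg (fun z => (Real.exp_pos _).le) hi).2 ?_
    have : Function.support (fun z : E n => Real.exp (-Q z)) = univ := by
      ext z
      simp [(Real.exp_pos _).ne']
    rw [this]
    exact isOpen_univ.measure_pos _ ⟨0, mem_univ _⟩
  have h1 : ∫ z : E n, g z * Real.exp (-Q z) = 0 := by
    unfold Ex at he
    rcases div_eq_zero_iff.1 he with h | h
    · exact h
    · exact absurd h hZ.ne'
  have hcQ : Continuous fun z : E n => Real.exp (-Q z) := by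
    unfold Q
    fun_prop
  have hint : Integrable fun z : E n => g z * Real.exp (-Q z) := by
    refine (hi.const_mul M).mono' (hg.mul hcQ).aestronglyMeasurable
      (Eventually.of_forall fun z => ?_)
    rw [Real.norm_eq_abs, abs_of_nonneg (mul_nonneg (h0 z) (Real.exp_pos _).le)]
    exact mul_le_mul_of_nonneg_right (hM z) (Real.exp_pos _).le
  have h2 : (fun z : E n => g z * Real.exp (-Q z)) =ᵐ[volume] 0 :=
    (integral_eq_zero_iff_of_nonneg (fun z => mul_nonneg (h0 z) (Real.exp_pos _).le) hint).1 h1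
  have h3 : (fun z : E n => g z * Real.exp (-Q z)) = 0 :=
    (Continuous.ae_eq_iff_eq volume (hg.mul hcQ) continuous_zero).1 h2
  have h4 := congrFun h3 z
  exact (mul_eq_zero.1 h4).resolve_right (Real.exp_pos _).ne'

/-- **part C** -/
theorem orthant_of_law {C : Set (Fin n → ℝ)} {c : Fin n → ℝ} {a b : ℝ} (hA : Adm C c a b)
    {B O : Matrix (Fin n) (Fin n) ℝ} (hB : B.det ≠ 0) (hO : O * Oᵀ = 1) {v : Fin n → ℝ}
    {t : ℝ → ℝ} (ht : Continuous t) (ht0 : ∀ s, 0 < t s) (hts : ∀ y, 0 < y → ∃ s, t s = y)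
    {T : E n → Fin n → ℝ} (hT : ∀ z i, (O *ᵥ T z) i = t ((O *ᵥ z.ofLp) i))
    (hlaw : ∀ f : (Fin n → ℝ) → ℝ, (∃ K : NNReal, LipschitzWith K f) → (∃ M : ℝ, ∀ x, |f x| ≤ M) →
      Ef (limDens 0 c C) (fun x => f (B *ᵥ x + v)) = Ex Q fun z => f (T z)) :
    C = {x | ∀ i, 0 ≤ ((O * B) *ᵥ x + O *ᵥ v) i} := by
  have hO' : Oᵀ * O = 1 := mul_eq_one_comm.1 hO
  have hTe : ∀ z, T z = Oᵀ *ᵥ fun i => t ((O *ᵥ z.ofLp) i) := by
    intro z
    have h1 : O *ᵥ T z = fun i => t ((O *ᵥ z.ofLp) i) := funext fun i => hT z i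
    rw [← h1, mulVec_mulVec, hO', one_mulVec]
  have hTc : Continuous T := by
    have e : T = fun z : E n => Oᵀ *ᵥ fun i => t ((O *ᵥ z.ofLp) i) := funext hTe
    rw [e]
    refine (Continuous.matrix_mulVec continuous_const (continuous_pi fun i => ht.comp ?_))
    exact (continuous_apply i).comp
      (Continuous.matrix_mulVec continuous_const (PiLp.continuous_ofLp 2 _))
  have haff : Continuous fun x : Fin n → ℝ => B *ᵥ x + v :=
    (Continuous.matrix_mulVec continuous_const continuous_id).add continuous_const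
  -- Lipschitz functions
  have hlinL : ∀ (P : Matrix (Fin n) (Fin n) ℝ), ∃ K : NNReal,
      LipschitzWith K fun x : Fin n → ℝ => P *ᵥ x := by
    intro P
    refine ⟨‖(Matrix.mulVecLin P).toContinuousLinearMap‖₊, ?_⟩
    have := (Matrix.mulVecLin P).toContinuousLinearMap.lipschitz
    exact this
  ext x
  constructor
  · intro hx i
    obtain ⟨K, hK⟩ := hlinL O
    -- `f y = min 1 (max 0 (-(O y)_i))`
    obtain ⟨f, hf⟩ : ∃ f : (Fin n → ℝ) → ℝ, ∀ y, f y = min 1 (max 0 (-(O *ᵥ y) i)) :=
      ⟨_, fun _ => rfl⟩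
    have hfL : LipschitzWith K f := by
      have e : f = fun y => min 1 (max 0 (-(O *ᵥ y) i)) := funext hf
      rw [e]
      have h1 : LipschitzWith K fun y : Fin n → ℝ => -(O *ᵥ y) i := by
        refine LipschitzWith.of_dist_le_mul fun y y' => ?_
        have h2 := hK.dist_le_mul y y'
        have h3 : dist (-(O *ᵥ y) i) (-(O *ᵥ y') i) ≤ dist (O *ᵥ y) (O *ᵥ y') := by
          rw [dist_neg_neg]
          exact dist_le_pi_dist _ _ i
        exact h3.trans h2
      exact (h1.const_max 0).const_min 1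
    have hf0 : ∀ y, 0 ≤ f y := fun y => by
      rw [hf]
      exact le_min zero_le_one (le_max_left _ _)
    have hf1 : ∀ y, f y ≤ 1 := fun y => by
      rw [hf]
      exact min_le_left _ _
    have h1 := hlaw f ⟨K, hfL⟩ ⟨1, fun y => by rw [abs_of_nonneg (hf0 y)]; exact hf1 y⟩
    have h2 : (fun z : E n => f (T z)) = fun _ => 0 := by
      funext z
      rw [hf, hT, max_eq_left, min_eq_right zero_le_one]
      linarith [ht0 ((O *ᵥ z.ofLp) i)]
    have h3 : Ex Q (fun z : E n => f (T z)) = 0 := by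
      rw [h2]
      unfold Ex
      simp
    rw [h3] at h1
    have h4 := Ef_pos hA (g := fun x => f (B *ᵥ x + v)) (hfL.continuous.comp haff)
      (fun x => hf0 _) (fun x => hf1 _) h1 hx
    have h5 : f (B *ᵥ x + v) = 0 := h4
    rw [hf] at h5
    have h6 : max 0 (-(O *ᵥ (B *ᵥ x + v)) i) ≤ 0 := by
      by_contra hcon
      push Not at hcon
      have : 0 < min 1 (max 0 (-(O *ᵥ (B *ᵥ x + v)) i)) := lt_min one_pos hcon
      linarith
    have h7 : -(O *ᵥ (B *ᵥ x + v)) i ≤ 0 := (le_max_right _ _).trans h6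
    rw [mulVec_add, mulVec_mulVec] at h7
    linarith
  · intro hx
    -- first the open orthant
    have hBu : IsUnit B.det := isUnit_iff_ne_zero.2 hB
    have hopen : ∀ y : Fin n → ℝ, (∀ i, 0 < ((O * B) *ᵥ y + O *ᵥ v) i) → y ∈ C := by
      intro y hy
      by_contra hyC
      obtain ⟨δ, hδ, hball⟩ := Metric.isOpen_iff.1 hA.closed.isOpen_compl y hyC
      obtain ⟨K, hK⟩ := hlinL B⁻¹
      obtain ⟨f, hf⟩ : ∃ f : (Fin n → ℝ) → ℝ, ∀ y', f y' =
          max 0 (δ - dist (B⁻¹ *ᵥ (y' - v)) y) := ⟨_, fun _ => rfl⟩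
      have hfL : LipschitzWith K f := by
        have e : f = fun y' => max 0 (δ - dist (B⁻¹ *ᵥ (y' - v)) y) := funext hf
        rw [e]
        refine LipschitzWith.const_max ?_ 0
        refine LipschitzWith.of_dist_le_mul fun y1 y2 => ?_
        have h2 := hK.dist_le_mul (y1 - v) (y2 - v)
        rw [dist_sub_right] at h2
        refine le_trans ?_ h2
        rw [Real.dist_eq]
        have h3 := abs_dist_sub_le (B⁻¹ *ᵥ (y1 - v)) (B⁻¹ *ᵥ (y2 - v)) y
        have e3 : δ - dist (B⁻¹ *ᵥ (y1 - v)) y - (δ - dist (B⁻¹ *ᵥ (y2 - v)) y) =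
            -(dist (B⁻¹ *ᵥ (y1 - v)) y - dist (B⁻¹ *ᵥ (y2 - v)) y) := by ring
        rw [e3, abs_neg]
        exact h3
      have hf0 : ∀ y, 0 ≤ f y := fun y => by
        rw [hf]
        exact le_max_left _ _
      have hf1 : ∀ y, f y ≤ δ := fun y1 => by
        rw [hf]
        refine max_le hδ.le ?_
        have := dist_nonneg (x := B⁻¹ *ᵥ (y1 - v)) (y := y)
        linarith
      have h1 := hlaw f ⟨K, hfL⟩ ⟨δ, fun y => by rw [abs_of_nonneg (hf0 y)]; exact hf1 y⟩
      have h2 : Ef (limDens 0 c C) (fun x => f (B *ᵥ x + v)) = 0 := by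
        unfold Ef
        have e : (fun x => f (B *ᵥ x + v) * limDens 0 c C x) = fun _ => 0 := by
          funext x
          by_cases hxC : x ∈ C
          · have e1 : B⁻¹ *ᵥ (B *ᵥ x + v - v) = x := by
              rw [add_sub_cancel_right, mulVec_mulVec, nonsing_inv_mul _ hBu, one_mulVec]
            rw [hf, e1, max_eq_left, zero_mul]
            by_contra hcon
            push Not at hcon
            have : x ∈ Metric.ball y δ := by
              rw [Metric.mem_ball]
              linarith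
            exact hball this hxC
          · unfold limDens
            rw [indicator_of_notMem hxC, mul_zero]
        rw [e]
        simp
      rw [h2] at h1
      -- choose `z` with `T z = B y + v`
      choose s hs using fun i => hts _ (hy i)
      obtain ⟨z, hz⟩ : ∃ z : E n, z = WithLp.toLp 2 (Oᵀ *ᵥ s) := ⟨_, rfl⟩
      have hz1 : O *ᵥ z.ofLp = s := by
        rw [hz]
        show O *ᵥ (Oᵀ *ᵥ s) = s
        rw [mulVec_mulVec, hO, one_mulVec]
      have hz2 : T z = B *ᵥ y + v := by
        rw [hTe, hz1]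
        have e : (fun i => t (s i)) = O *ᵥ (B *ᵥ y + v) := by
          funext i
          rw [hs i, mulVec_add, mulVec_mulVec]
        rw [e, mulVec_mulVec, hO', one_mulVec]
      have h3 := ExQ_pos (g := fun z => f (T z)) (hfL.continuous.comp hTc) (fun z => hf0 _)
        (fun z => hf1 _) h1.symm z
      have h4 : f (T z) = 0 := h3
      rw [hz2, hf, add_sub_cancel_right, mulVec_mulVec, nonsing_inv_mul _ hBu, one_mulVec,
        dist_self, sub_zero, max_eq_right hδ.le] at h4
      exact hδ.ne' h4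
    -- closure
    have hdet : (O * B).det ≠ 0 := by
      rw [det_mul]
      refine mul_ne_zero ?_ hB
      intro h0
      have := congrArg Matrix.det hO
      rw [det_mul, h0, zero_mul, det_one] at this
      exact zero_ne_one this
    have hu : IsUnit (O * B).det := isUnit_iff_ne_zero.2 hdet
    obtain ⟨w, hw⟩ : ∃ w : Fin n → ℝ, w = (O * B)⁻¹ *ᵥ fun _ => 1 := ⟨_, rfl⟩
    have hw1 : (O * B) *ᵥ w = fun _ => 1 := by
      rw [hw, mulVec_mulVec, mul_nonsing_inv _ hu, one_mulVec]
    have hlim : Tendsto (fun k : ℕ => x + (1 / ((k : ℝ) + 1)) • w) atTop (𝓝 (x + (0 : ℝ) • w)) :=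
      tendsto_const_nhds.add (tendsto_one_div_add_atTop_nhds_zero_nat.smul_const w)
    rw [zero_smul, add_zero] at hlim
    refine hA.closed.mem_of_tendsto hlim (Eventually.of_forall fun k => ?_)
    refine hopen _ fun i => ?_
    have hk : (0 : ℝ) < 1 / ((k : ℝ) + 1) := by positivity
    have h1 := hx i
    rw [mulVec_add, mulVec_smul, hw1]
    simp only [Pi.add_apply, Pi.smul_apply, smul_eq_mul, mul_one] at h1 ⊢
    linarith

end Vale.Agent.P254.Eq630
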