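import Vale.Agent.P254.H657.E2f

/-! P254, equality case for the functional `(DD)` (helper630), part 1: interface, algebra, jets. -/

open MeasureTheory Set Matrix Filter Topology Metric

namespace Vale.Agent.P254.Eq630

open R304 Eq657
open L (Mat Ten NN N3 frT Vec J1 J2)

variable {n : ℕ}

/-- left side of `(DD)` for `B` close to `0`; every symmetric `M` gives `A⁻¹ ≥ 2 M - M A M` -/
def dL (κ : ℝ) (A D M : Mat n) (T : Ten n) : ℝ :=
  N3 ((2 : ℝ) • M - M * A * M + κ • (1 : Mat n)) D D T T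

/-- right side of `(DD)` for `B` close to `0` -/
def dR (κ : ℝ) (A D : Mat n) : ℝ := 4 * (((A - κ • (A * A)) * D) ^ 2).trace

/-- `(DD)` for nice measures, `B = t • 1`, `t` small -/
def SmallD (r1 : ℝ) : Prop := ∀ (n : ℕ) (δ : ℝ), 0 < δ → ∃ x0 : ℝ, 0 < x0 ∧
  ∀ (K : Set (Fin n → ℝ)), IsCompact K → StrictConvex ℝ K → (interior K).Nonempty →
  ∀ ε m : ℝ, 0 < ε → 0 < m → ∀ t : ℝ, 0 < t → ∀ c : Fin n → ℝ,
    (x0 • (1 : Mat n) - t • covF (fun x => tilt (t • 1) c x * nice K ε m x)).PosSemidef →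
    ∀ D : Mat n, D.PosSemidef → ∀ M : Mat n, M.IsSymm →
      dL ((r1 - δ) * t) (covF (fun x => tilt (t • 1) c x * nice K ε m x)) D M
          (T3 fun x => tilt (t • 1) c x * nice K ε m x) ≤
        dR ((3 - r1 / 2 - δ) * t) (covF (fun x => tilt (t • 1) c x * nice K ε m x)) D

/-- the same for `limDens (t • 1) c C` -/
def LimD (r1 : ℝ) (n : ℕ) : Prop := ∀ δ : ℝ, 0 < δ → ∃ x0 : ℝ, 0 < x0 ∧
  ∀ (C : Set (Fin n → ℝ)) (c : Fin n → ℝ) (a b : ℝ), Adm C c a b → ∀ t : ℝ, 0 < t →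
    (x0 • (1 : Mat n) - t • covF (limDens (t • 1) c C)).PosSemidef →
    ∀ D : Mat n, D.PosSemidef → ∀ M : Mat n, M.IsSymm →
      dL ((r1 - δ) * t) (covF (limDens (t • 1) c C)) D M (T3 (limDens (t • 1) c C)) ≤
        dR ((3 - r1 / 2 - δ) * t) (covF (limDens (t • 1) c C)) D

/-! ### algebra -/

lemma N3_eq (P Q R : Mat n) (T T' : Ten n) : N3 P Q R T T' = ip T (m3 R (m2 Q (m1 P T'))) := by
  unfold N3 ip m3 m2 m1
  refine Finset.sum_congr rfl fun a _ => Finset.sum_congr rfl fun b _ =>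
    Finset.sum_congr rfl fun c _ => ?_
  simp only [Finset.mul_sum]
  calc ∑ a', ∑ b', ∑ c', P a a' * Q b b' * R c c' * T a b c * T' a' b' c'
      = ∑ a', ∑ c', ∑ b', P a a' * Q b b' * R c c' * T a b c * T' a' b' c' :=
        Finset.sum_congr rfl fun a' _ => Finset.sum_comm
    _ = ∑ c', ∑ a', ∑ b', P a a' * Q b b' * R c c' * T a b c * T' a' b' c' := Finset.sum_comm
    _ = ∑ c', ∑ b', ∑ a', P a a' * Q b b' * R c c' * T a b c * T' a' b' c' :=
        Finset.sum_congr rfl fun c' _ => Finset.sum_comm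
    _ = _ := Finset.sum_congr rfl fun c' _ => Finset.sum_congr rfl fun b' _ =>
        Finset.sum_congr rfl fun a' _ => by ring

lemma m1_one (T : Ten n) : m1 1 T = T := by
  ext a b c
  simp [m1, Matrix.one_apply]

lemma N3_one (T : Ten n) : N3 1 1 1 T T = ip T T := by
  rw [N3_eq]
  congr 1
  ext a b c
  simp [m3, m2, m1, Matrix.one_apply]

/-- the tetrahedral sum is at most `16 n` -/
lemma tau_le {T : Ten n} (hT : L.TSymm T)
    (hM : ∀ m m', ∑ a, ∑ i, T a i m * T a i m' = if m = m' then 4 else 0) :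
    S4 (fun a i j k => GG T a i j k * GG T a j i k) ≤ 16 * n := by
  set τ := S4 (fun a i j k => GG T a i j k * GG T a j i k) with hτ
  have h3 : S4 (fun a b i j => (GG T a i b j - GG T b i a j) ^ 2) = 32 * n - 2 * τ := by
    have e1 : (fun a b i j => (GG T a i b j - GG T b i a j) ^ 2) = fun a b i j : Fin n =>
        (GG T a i b j ^ 2 + GG T b i a j ^ 2) - 2 * (GG T a i b j * GG T b i a j) := by
      ext a b i j
      ring
    rw [e1, S4_sub, S4_add, S4_mul]
    have e2 : S4 (fun a b i j => GG T a i b j ^ 2) = 16 * n := by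
      rw [S4_swap23, ← sqG hT hM]
    have e3 : S4 (fun a b i j => GG T b i a j ^ 2) = 16 * n := by
      rw [S4_swap12, S4_swap23, ← sqG hT hM]
    have e4 : S4 (fun a b i j => GG T a i b j * GG T b i a j) = τ := by
      have e5 : S4 (fun a b i j => GG T a i b j * GG T b i a j) =
          S4 fun a b i j => GG T a i j b * GG T a j i b :=
        S4_congr fun a b i j => by rw [G34 hT a i b j, Gpair hT b i a j, G34 hT a j b i]
      rw [e5, S4_swap23, S4_swap34]
    rw [e2, e3, e4]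
    ring
  have h4 : 0 ≤ S4 (fun a b i j => (GG T a i b j - GG T b i a j) ^ 2) :=
    S4_nonneg fun a b i j => sq_nonneg _
  rw [h3] at h4
  linarith

/-- The conclusion: the slices commute. -/
theorem commute_of_keyD {T : Ten n} (hT : L.TSymm T)
    (hM : ∀ m m', ∑ a, ∑ i, T a i m * T a i m' = if m = m' then 4 else 0)
    (K : Fin n → Ten n) (hK1 : ∀ a i j k, K a i j k = K a j i k)
    (hK2 : ∀ a i j k, K a i j k = K a i k j)
    (key : ∀ δ : ℝ, 0 < δ → 27 * n - 12 * δ * n + S4 (fun a i j k => K a i j k ^ 2)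
      - 3 * S4 (fun a i j k => K a i j k * GG T a i j k)
      + 9 / 16 * S4 (fun a i j k => GG T a i j k * GG T a j i k) ≤ 0) (a b : Fin n) :
    slice T a * slice T b = slice T b * slice T a := by
  refine commute_of_key hT hM K hK1 hK2 (fun δ hδ => ?_) a b
  have h1 := key δ hδ
  have h2 := tau_le hT hM
  linarith

/-! ### jets -/

variable {T : ℝ → Ten n} {T0 T1 T2 : Ten n} {M P : ℝ → Mat n} {M1 M2 P1 P2 X : Mat n}

lemma TJ_m1 (h : TJ T T0 T1 T2) (k : MJ P 1 P1 P2) :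
    TJ (fun s => m1 (P s) (T s)) T0 (fun a b c => T1 a b c + m1 P1 T0 a b c)
      (fun a b c => T2 a b c + (m1 P1 T1 a b c + m1 P2 T0 a b c)) := by
  intro a b c
  have h1 := J2.sum Finset.univ (fun a' _ => (k a a').mul le_rfl (h a' b c))
  refine h1.congr (Eventually.of_forall fun s => rfl) ?_ ?_ ?_
  · simp [Matrix.one_apply]
  · rw [Finset.sum_add_distrib]
    simp [Matrix.one_apply, m1]
  · rw [Finset.sum_add_distrib, Finset.sum_add_distrib]
    simp [Matrix.one_apply, m1, add_assoc]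

lemma ip_m31' {T : Ten n} (h : L.TSymm T) (X Y : Mat n) :
    ip T (m3 X (m1 Y T)) = ip T (m2 X (m1 Y T)) := by
  rw [ip_swap23]
  have e1 : (fun a b c => T a c b) = T := by
    ext a b c
    exact (h.2 a b c).symm
  have e2 : (fun a b c => m3 X (m1 Y T) a c b) = m2 X (m1 Y T) := by
    ext a b c
    unfold m3 m2 m1
    refine Finset.sum_congr rfl fun b' _ => ?_
    congr 1
    exact Finset.sum_congr rfl fun a' _ => by rw [h.2 a' c b']
  rw [e1, e2]

/-- the 2-jet of `⟨T, P ⊗ D ⊗ D T⟩`, `D = 1 + s X` -/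
lemma N3_jet (h : TJ T T0 T1 T2) (k : MJ P 1 P1 P2) (hT : L.TSymm T0) (hK : L.TSymm T1)
    (hX : ∀ i j, X i j = X j i) (hP1 : ∀ i j, P1 i j = P1 j i) :
    J2 (𝓝 0) (fun s => N3 (P s) (1 + s • X) (1 + s • X) (T s) (T s)) (ip T0 T0)
      (2 * ip T0 T1 + ip T0 (m1 P1 T0) + 2 * ip T0 (m1 X T0))
      (2 * ip T0 T2 + ip T1 T1 + 2 * ip T1 (m1 P1 T0) + 4 * ip T1 (m1 X T0)
        + ip T0 (m1 P2 T0) + 2 * ip T0 (m2 X (m1 P1 T0)) + ip T0 (m2 X (m1 X T0))) := by
  have h1 := h.ip (((TJ_m1 h k).m2 X).m3 X)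
  have f1 : ip T0 (m1 P1 T1) = ip T1 (m1 P1 T0) := by rw [ip_m1 hP1, ip_comm]
  have f2 : ip T0 (m1 X T1) = ip T1 (m1 X T0) := by rw [ip_m1 hX, ip_comm]
  refine h1.congr (Eventually.of_forall fun s => (N3_eq _ _ _ _ _).symm) rfl ?_ ?_
  · simp only [ip_add]
    rw [ip_comm T1 T0, ip_m3 hT.2 hT.2, ip_m2 hT.1 hT.1]
    ring
  simp only [ip_add, m2_add, m3_add]
  rw [ip_comm T2 T0, ip_m31' hT, ip_m32 hT, ip_m3 hT.2 hK.2, ip_m2 hT.1 hK.1, ip_m3 hK.2 hT.2,
    ip_m2 hK.1 hT.1, f1, f2]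
  ring

lemma MJ_sqtr (h : MJ M 1 M1 M2) : J2 (𝓝 0) (fun s => (M s ^ 2).trace) n (2 * M1.trace)
    (2 * M2.trace + (M1 * M1).trace) := by
  have h1 := (h.mul h).trace
  refine h1.congr (Eventually.of_forall fun s => ?_) ?_ ?_ ?_
  · show (M s * M s).trace = (M s ^ 2).trace
    rw [pow_two]
  · simp
  · simp only [Matrix.one_mul, Matrix.mul_one, Matrix.trace_add]
    ring
  · simp only [Matrix.one_mul, Matrix.mul_one, Matrix.trace_add]
    ring

/-- the jet of `2 M - M A M + κ s² 1`, `M = 1 - s S`, `A = 1 + s S + s² A2` -/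
lemma MJ_inv {A : ℝ → Mat n} {S A2 : Mat n} (h : MJ A 1 S A2) (κ : ℝ) :
    MJ (fun s => (2 : ℝ) • (1 + s • (-S)) - (1 + s • (-S)) * A s * (1 + s • (-S))
      + (κ * s ^ 2) • (1 : Mat n)) 1 (-S) (S * S - A2 + κ • 1) := by
  have hM := MJ.lin (-S)
  have h1 := (hM.mul h).mul hM
  have h3 : MJ (fun _ => (1 : Mat n)) 1 0 0 := fun i j => J2.const _
  have h4 := h3.sq_smul κ
  intro i j
  have h5 := (((hM i j).const_mul 2).sub (h1 i j)).add (h4 i j)
  refine h5.congr (Eventually.of_forall fun s => ?_) ?_ ?_ ?_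
  · rfl
  · simp only [Matrix.mul_one, Matrix.zero_apply]
    ring
  · simp only [Matrix.one_mul, Matrix.mul_one, Matrix.zero_apply, Matrix.add_apply,
      Matrix.neg_apply]
    ring
  · simp only [Matrix.one_mul, Matrix.mul_one, Matrix.zero_apply, Matrix.add_apply,
      Matrix.neg_apply, Matrix.smul_apply, Matrix.sub_apply, Matrix.neg_mul, Matrix.mul_neg,
      Matrix.mul_zero, Matrix.add_mul, smul_eq_mul]
    ring

end Vale.Agent.P254.Eq630
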