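import Vale.Agent.P254.H630.EqD1

/-! P254, equality case for the functional `(DD)` (helper630), part 2: the slices commute. -/

open MeasureTheory Set Matrix Filter Topology Metric

namespace Vale.Agent.P254.Eq630

open R304 Eq657
open L (Mat Ten NN N3 frT Vec J1 J2)

variable {n : ℕ} {C : Set (Fin n → ℝ)} {c : Fin n → ℝ} {α b r1 : ℝ}

lemma continuous_N3 (D : Mat n) : Continuous fun p : Mat n × Ten n => N3 p.1 D D p.2 p.2 := by
  unfold N3
  fun_prop

lemma tendsto_N3 {ι : Type*} {l : Filter ι} {P : ι → Mat n} {T : ι → Ten n} {P0 : Mat n} {T0 : Ten n}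
    (hP : Tendsto P l (𝓝 P0)) (hT : Tendsto T l (𝓝 T0)) (D : Mat n) :
    Tendsto (fun s => N3 (P s) D D (T s) (T s)) l (𝓝 (N3 P0 D D T0 T0)) := by
  have h1 : Tendsto (fun s => (P s, T s)) l (𝓝 (P0, T0)) := hP.prodMk_nhds hT
  have h2 := ((continuous_N3 D).tendsto (P0, T0)).comp h1
  exact h2

lemma tendsto_dLM {ι : Type*} {l : Filter ι} {κ : ι → ℝ} {A : ι → Mat n} {κ0 : ℝ}
    {A0 : Mat n} (hκ : Tendsto κ l (𝓝 κ0)) (hA : Tendsto A l (𝓝 A0)) (M : Mat n) :
    Tendsto (fun s => (2 : ℝ) • M - M * A s * M + κ s • (1 : Mat n)) l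
      (𝓝 ((2 : ℝ) • M - M * A0 * M + κ0 • (1 : Mat n))) := by
  have h1 : Tendsto (fun s => M * A s * M) l (𝓝 (M * A0 * M)) :=
    (tendsto_const_nhds.mul hA).mul tendsto_const_nhds
  have h2 : Tendsto (fun s => κ s • (1 : Mat n)) l (𝓝 (κ0 • (1 : Mat n))) :=
    hκ.smul tendsto_const_nhds
  exact (tendsto_const_nhds.sub h1).add h2

lemma tendsto_dL {ι : Type*} {l : Filter ι} {κ : ι → ℝ} {A : ι → Mat n} {T : ι → Ten n}
    {κ0 : ℝ} {A0 : Mat n} {T0 : Ten n} (hκ : Tendsto κ l (𝓝 κ0)) (hA : Tendsto A l (𝓝 A0))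
    (hT : Tendsto T l (𝓝 T0)) (D M : Mat n) :
    Tendsto (fun s => dL (κ s) (A s) D M (T s)) l (𝓝 (dL κ0 A0 D M T0)) := by
  have h := tendsto_N3 (tendsto_dLM hκ hA M) hT D
  exact h

lemma tendsto_dR {ι : Type*} {l : Filter ι} {κ : ι → ℝ} {A : ι → Mat n} {κ0 : ℝ}
    {A0 : Mat n} (hκ : Tendsto κ l (𝓝 κ0)) (hA : Tendsto A l (𝓝 A0)) (D : Mat n) :
    Tendsto (fun s => dR (κ s) (A s) D) l (𝓝 (dR κ0 A0 D)) := by
  have h8 : Tendsto (fun s => (A s - κ s • (A s * A s)) * D) l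
      (𝓝 ((A0 - κ0 • (A0 * A0)) * D)) :=
    (hA.sub (hκ.smul (hA.mul hA))).mul tendsto_const_nhds
  have h9 : Continuous fun M : Mat n => M.trace := continuous_id.matrix_trace
  exact ((h9.tendsto _).comp (h8.pow 2)).const_mul 4

/-- `(DD)` at `B = 0` -/
theorem pineq0D (hn : 0 < n) (hP : LimD r1 n) (h : Adm C c α b) (hI : Iso C c) {D : Mat n}
    (hD : D.PosSemidef) : N3 1 D D (tt C c) (tt C c) ≤ 4 * (D ^ 2).trace := by
  have hα : 0 < α / 2 := half_pos h.ha
  obtain ⟨x0, hx0, hP'⟩ := hP 1 one_pos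
  obtain ⟨a, -⟩ : ∃ a : Fin n, a = ⟨0, hn⟩ := ⟨_, rfl⟩
  have hT : Tendsto (fun s => T3 (fs C c a s)) (𝓝[≠] (0 : ℝ)) (𝓝 (tt C c)) := by
    refine tendsto_pi_nhds.2 fun i => tendsto_pi_nhds.2 fun j => tendsto_pi_nhds.2 fun k => ?_
    exact ((T3_jet hn h hI a i j k).tendsto le_rfl).mono_left nhdsWithin_le_nhds
  have hA : Tendsto (fun s => covF (fs C c a s)) (𝓝[≠] (0 : ℝ)) (𝓝 1) := by
    refine tendsto_pi_nhds.2 fun i => tendsto_pi_nhds.2 fun j => ?_
    exact ((cov_jet hn h hI a i j).tendsto le_rfl).mono_left nhdsWithin_le_nhds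
  have hs : Tendsto (fun s : ℝ => s) (𝓝[≠] (0 : ℝ)) (𝓝 0) :=
    tendsto_id.mono_left nhdsWithin_le_nhds
  have hr : ∀ κ : ℝ, Tendsto (fun s : ℝ => κ * (s ^ 2 / (n : ℝ))) (𝓝[≠] (0 : ℝ)) (𝓝 0) := by
    intro κ
    have := ((hs.pow 2).div_const (n : ℝ)).const_mul κ
    simpa using this
  have h3 := le_of_tendsto_of_tendsto (tendsto_dL (hr (r1 - 1)) hA hT D 1)
    (tendsto_dR (hr (3 - r1 / 2 - 1)) hA D) (by
    have hsm := (ev_small hn h hI a hx0).filter_mono (nhdsWithin_le_nhds (s := {(0 : ℝ)}ᶜ))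
    have hb : ∀ᶠ s : ℝ in 𝓝[≠] (0 : ℝ), |s| < α / 2 := by
      refine Filter.Eventually.filter_mono nhdsWithin_le_nhds ?_
      filter_upwards [ball_mem_nhds (0 : ℝ) hα] with s hs
      rwa [mem_ball, dist_zero_right, Real.norm_eq_abs] at hs
    filter_upwards [hsm, hb, self_mem_nhdsWithin] with s h4 h5 h6
    have hs0 : s ≠ 0 := h6
    have hn' : (0 : ℝ) < n := by exact_mod_cast hn
    exact hP' C _ _ _ (adm_path h a h5.le) (s ^ 2 / n) (by positivity) h4 D hD 1
      Matrix.isSymm_one)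
  have e1 : (2 : ℝ) • (1 : Mat n) - 1 * 1 * 1 + (0 : ℝ) • (1 : Mat n) = 1 := by
    simp only [mul_one, zero_smul, add_zero, two_smul]
    exact add_sub_cancel_right _ _
  unfold dL dR at h3
  rw [e1, zero_smul, sub_zero, one_mul] at h3
  exact h3

/-- `‖T‖² = 4 n` -/
theorem ip_eqD (hn : 0 < n) (hP : LimD r1 n) (hZ : LimZ n) (h : Adm C c α b) (hI : Iso C c)
    (hD : DD (limDens 0 c C) = 0) : ip (tt C c) (tt C c) = 4 * n := by
  apply le_antisymm
  · have h1 := pineq0D hn hP h hI Matrix.PosSemidef.one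
    rw [N3_one] at h1
    simpa using h1
  · rw [ip_slice]
    exact four_n_le hn hZ h hI hD

/-- the first order condition in `D` -/
theorem first_orderD (hn : 0 < n) (hP : LimD r1 n) (hZ : LimZ n) (h : Adm C c α b)
    (hI : Iso C c) (hD : DD (limDens 0 c C) = 0) {Y : Mat n} (hY : ∀ i j, Y i j = Y j i) :
    ip (tt C c) (m1 Y (tt C c)) = 4 * Y.trace := by
  have h0 : L.TSymm (0 : Ten n) := ⟨fun _ _ _ => rfl, fun _ _ _ => rfl⟩
  have hc : MJ (fun _ => (1 : Mat n)) 1 0 0 := fun i j => J2.const _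
  have h1 := (N3_jet (const_TJ (tt C c)) hc tt_symm h0 hY (fun _ _ => rfl)).sub
    ((MJ_sqtr (MJ.lin Y)).const_mul 4)
  have h2 := (h1.le_test (by
    filter_upwards [psd_near hY] with s hs
    rw [ip_eqD hn hP hZ h hI hD]
    have := pineq0D hn hP h hI hs
    linarith)).1
  have e0 : ip (tt C c) (0 : Ten n) = 0 := by
    unfold ip
    simp
  have e1 : m1 (0 : Mat n) (tt C c) = 0 := by
    ext i j k
    simp [m1]
  rw [e1, e0] at h2
  linarith

theorem hMD (hn : 0 < n) (hP : LimD r1 n) (hZ : LimZ n) (h : Adm C c α b) (hI : Iso C c)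
    (hD : DD (limDens 0 c C) = 0) (m m' : Fin n) :
    ∑ a, ∑ i, tt C c a i m * tt C c a i m' = if m = m' then 4 else 0 := by
  have e1 : ∀ m m', ∑ b, ∑ c', tt C c m b c' * tt C c m' b c' =
      ∑ a, ∑ i, tt C c a i m * tt C c a i m' := by
    intro m m'
    refine Finset.sum_congr rfl fun a _ => Finset.sum_congr rfl fun i _ => ?_
    have e : ∀ m, tt C c m a i = tt C c a i m := fun m => by
      rw [tt_comm12, tt_comm23]
    rw [e m, e m']
  have h1 := first_orderD hn hP hZ h hI hD (Y := Matrix.of fun i j =>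
    kd i m * kd j m' + kd i m' * kd j m) (fun i j => by
      rw [of_apply, of_apply]
      ring)
  have h2 : ip (tt C c) (m1 (Matrix.of fun i j => kd i m * kd j m' + kd i m' * kd j m) (tt C c)) =
      2 * ∑ b, ∑ c', tt C c m b c' * tt C c m' b c' := by
    unfold ip m1
    have e2 : ∀ a b c', tt C c a b c' * (∑ a', (Matrix.of fun i j =>
        kd i m * kd j m' + kd i m' * kd j m) a a' * tt C c a' b c') =
        tt C c a b c' * (kd a m * tt C c m' b c' + kd a m' * tt C c m b c') := by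
      intro a b c'
      congr 1
      simp only [of_apply, add_mul, Finset.sum_add_distrib]
      congr 1
      · simp [kd]
      · simp [kd]
    simp only [e2]
    rw [Finset.sum_comm]
    have e3 : ∀ b c', ∑ a, tt C c a b c' * (kd a m * tt C c m' b c' + kd a m' * tt C c m b c') =
        2 * (tt C c m b c' * tt C c m' b c') := by
      intro b c'
      simp only [mul_add, Finset.sum_add_distrib]
      simp [kd]
      ring
    rw [Finset.mul_sum]
    refine Finset.sum_congr rfl fun b _ => ?_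
    rw [Finset.sum_comm, Finset.mul_sum]
    exact Finset.sum_congr rfl fun c' _ => e3 b c'
  have h3 : (Matrix.of fun i j : Fin n => kd i m * kd j m' + kd i m' * kd j m).trace =
      2 * kd m m' := by
    unfold Matrix.trace
    simp only [Matrix.diag_apply, of_apply, Finset.sum_add_distrib]
    simp [kd, eq_comm]
    split_ifs <;> ring
  rw [h2, h3, e1] at h1
  unfold kd at h1
  split_ifs with hm
  · rw [if_pos hm] at h1
    linarith
  · rw [if_neg hm] at h1
    linarith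

end Vale.Agent.P254.Eq630
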