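import Vale.Agent.P254.H630.EqD2

/-! P254, equality case for the functional `(DD)` (helper630), part 3: the key inequality. -/

open MeasureTheory Set Matrix Filter Topology Metric

namespace Vale.Agent.P254.Eq630

open R304 Eq657
open L (Mat Ten NN N3 frT Vec J1 J2)

variable {n : ℕ} {C : Set (Fin n → ℝ)} {c : Fin n → ℝ} {α b r1 : ℝ}

lemma m1_smul (r : ℝ) (X : Mat n) (T : Ten n) :
    m1 (r • X) T = fun i j k => r * m1 X T i j k := by
  ext i j k
  unfold m1
  rw [Finset.mul_sum]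
  exact Finset.sum_congr rfl fun m _ => by
    rw [Matrix.smul_apply, smul_eq_mul]
    ring

lemma m2_smul (r : ℝ) (X : Mat n) (T : Ten n) :
    m2 (r • X) T = fun i j k => r * m2 X T i j k := by
  ext i j k
  unfold m2
  rw [Finset.mul_sum]
  exact Finset.sum_congr rfl fun m _ => by
    rw [Matrix.smul_apply, smul_eq_mul]
    ring

lemma m2_smul' (r : ℝ) (X : Mat n) (T : Ten n) :
    m2 X (fun i j k => r * T i j k) = fun i j k => r * m2 X T i j k := by
  ext i j k
  unfold m2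
  rw [Finset.mul_sum]
  exact Finset.sum_congr rfl fun m _ => by ring

lemma m1_add (X Y : Mat n) (T : Ten n) :
    m1 (X + Y) T = fun i j k => m1 X T i j k + m1 Y T i j k := by
  ext i j k
  unfold m1
  rw [← Finset.sum_add_distrib]
  exact Finset.sum_congr rfl fun m _ => by
    rw [Matrix.add_apply]
    ring

lemma ip_mul (r : ℝ) (T T' : Ten n) : ip T (fun i j k => r * T' i j k) = r * ip T T' := by
  unfold ip
  simp only [Finset.mul_sum]
  exact Finset.sum_congr rfl fun a _ => Finset.sum_congr rfl fun b _ =>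
    Finset.sum_congr rfl fun c _ => by ring

lemma ip_m1_sum {ι : Type*} (S : Finset ι) (T : Ten n) (f : ι → Mat n) :
    ∑ a ∈ S, ip T (m1 (f a) T) = ip T (m1 (∑ a ∈ S, f a) T) := by
  rw [ip_sum]
  congr 1
  ext i j k
  unfold m1
  rw [Finset.sum_comm]
  exact Finset.sum_congr rfl fun m _ => by rw [Matrix.sum_apply, Finset.sum_mul]

lemma trace_slice_sq (a : Fin n) : (slice (tt C c) a * slice (tt C c) a).trace =
    ∑ i, ∑ j, slice (tt C c) a i j ^ 2 := by
  unfold Matrix.trace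
  simp only [Matrix.diag_apply, Matrix.mul_apply]
  refine Finset.sum_congr rfl fun i _ => Finset.sum_congr rfl fun j _ => ?_
  rw [slice_symm a j i, sq]

lemma m2m1_smul (r r' : ℝ) (X : Mat n) (T : Ten n) :
    m2 (r • X) (m1 (r' • X) T) = fun i j k => (r * r') * m2 X (m1 X T) i j k := by
  rw [m1_smul, m2_smul']
  ext i j k
  rw [m2_smul]
  show r' * (r * m2 X (m1 X T) i j k) = (r * r') * m2 X (m1 X T) i j k
  ring

lemma left_a (T K U : Ten n) (S A : Mat n) (κ : ℝ) :
    2 * ip T U + ip K K + 2 * ip K (m1 (-S) T)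
      + 4 * ip K (m1 ((-(1 / 4) : ℝ) • S) T) + ip T (m1 (S * S - A + κ • 1) T)
      + 2 * ip T (m2 ((-(1 / 4) : ℝ) • S) (m1 (-S) T))
      + ip T (m2 ((-(1 / 4) : ℝ) • S) (m1 ((-(1 / 4) : ℝ) • S) T)) =
      2 * ip T U + ip K K - 3 * ip K (m1 S T) + ip T (m1 (S * S) T)
      - ip T (m1 A T) + κ * ip T T + 9 / 16 * ip T (m2 S (m1 S T)) := by
  have f1 : -S = (-1 : ℝ) • S := by
    rw [neg_smul, one_smul]
  have f2 : S * S - A + κ • 1 = S * S + (-1 : ℝ) • A + κ • 1 := by
    rw [neg_smul, one_smul, sub_eq_add_neg]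
  have f3 : ip T (m1 (S * S + (-1 : ℝ) • A + κ • 1) T) =
      ip T (m1 (S * S) T) + (-1) * ip T (m1 A T) + κ * ip T T := by
    rw [m1_add, m1_add, m1_smul, m1_smul, m1_one, ip_add, ip_add, ip_mul, ip_mul]
  have f4 : ∀ r : ℝ, ip K (m1 (r • S) T) = r * ip K (m1 S T) := by
    intro r
    rw [m1_smul, ip_mul]
  have f5 : ∀ r r' : ℝ, ip T (m2 (r • S) (m1 (r' • S) T)) = r * r' * ip T (m2 S (m1 S T)) := by
    intro r r'
    rw [m2m1_smul, ip_mul]
  rw [f1, f2, f3, f4, f4, f5, f5]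
  ring

/-- sum of the left sides -/
lemma sum_left (hn : 0 < n) (hP : LimD r1 n) (hZ : LimZ n) (h : Adm C c α b) (hI : Iso C c)
    (hD : DD (limDens 0 c C) = 0) (κ : ℝ) :
    ∑ a, (2 * ip (tt C c) (T2 C c a) + ip (kk C c a) (kk C c a)
      + 2 * ip (kk C c a) (m1 (-slice (tt C c) a) (tt C c))
      + 4 * ip (kk C c a) (m1 ((-(1 / 4) : ℝ) • slice (tt C c) a) (tt C c))
      + ip (tt C c) (m1 (slice (tt C c) a * slice (tt C c) a - A2 C c a + κ • 1) (tt C c))
      + 2 * ip (tt C c) (m2 ((-(1 / 4) : ℝ) • slice (tt C c) a)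
          (m1 (-slice (tt C c) a) (tt C c)))
      + ip (tt C c) (m2 ((-(1 / 4) : ℝ) • slice (tt C c) a)
          (m1 ((-(1 / 4) : ℝ) • slice (tt C c) a) (tt C c)))) =
    -(4 * n) + 4 * κ * n * n + S4 (fun a i j k => kk C c a i j k ^ 2)
      - 3 * S4 (fun a i j k => kk C c a i j k * GG (tt C c) a i j k)
      + 9 / 16 * S4 (fun a i j k => GG (tt C c) a i j k * GG (tt C c) a j i k) := by
  have hipT := ip_eqD hn hP hZ h hI hD
  have s1 : ∑ a, ip (tt C c) (T2 C c a) = -(12 * n) := by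
    rw [ip_sum]
    simp only [sum_T2 hn h]
    rw [ip_mul, hipT]
    ring
  have s2 : ∑ a, ip (kk C c a) (kk C c a) = S4 fun a i j k => kk C c a i j k ^ 2 := by
    unfold ip S4
    simp only [sq]
  have s3 : ∑ a, ip (kk C c a) (m1 (slice (tt C c) a) (tt C c)) =
      S4 fun a i j k => kk C c a i j k * GG (tt C c) a i j k := rfl
  have s4 : ∑ a, ip (tt C c) (m2 (slice (tt C c) a) (m1 (slice (tt C c) a) (tt C c))) =
      S4 fun a i j k => GG (tt C c) a i j k * GG (tt C c) a j i k := tau_sum tt_symm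
  have s5 : ∑ a, ip (tt C c) (m1 (slice (tt C c) a * slice (tt C c) a) (tt C c)) = 16 * n := by
    rw [ip_m1_sum]
    have hs : ∀ i j, (∑ a, slice (tt C c) a * slice (tt C c) a) i j =
        if i = j then 4 else 0 := by
      intro i j
      rw [Matrix.sum_apply, ← hMD hn hP hZ h hI hD i j]
      refine Finset.sum_congr rfl fun a _ => ?_
      rw [Matrix.mul_apply]
      refine Finset.sum_congr rfl fun m _ => ?_
      unfold slice
      rw [of_apply, of_apply, tt_comm23 a i m]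
    have hs' : ∑ a, slice (tt C c) a * slice (tt C c) a = (4 : ℝ) • (1 : Mat n) := by
      ext i j
      rw [hs, Matrix.smul_apply, Matrix.one_apply]
      split_ifs <;> simp
    rw [hs', m1_smul, ip_mul, m1_one, hipT]
    ring
  have s6 : ∑ a, ip (tt C c) (m1 (A2 C c a) (tt C c)) = -(4 * n) := by
    rw [ip_m1_sum]
    have hs' : ∑ a, A2 C c a = (-1 : ℝ) • (1 : Mat n) := by
      ext i j
      rw [Matrix.sum_apply, sum_A2 hn h, Matrix.smul_apply, Matrix.one_apply]
      unfold kd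
      split_ifs <;> simp
    rw [hs', m1_smul, ip_mul, m1_one, hipT]
    ring
  simp only [left_a, hipT]
  rw [Finset.sum_add_distrib, Finset.sum_add_distrib, Finset.sum_sub_distrib,
    Finset.sum_add_distrib, Finset.sum_sub_distrib, Finset.sum_add_distrib]
  simp only [← Finset.mul_sum]
  rw [s1, s2, s3, s4, s5, s6]
  simp only [Finset.sum_const, Finset.card_univ, Fintype.card_fin, nsmul_eq_mul]
  ring

/-- sum of the right sides -/
lemma sum_right (hn : 0 < n) (hP : LimD r1 n) (hZ : LimZ n) (h : Adm C c α b) (hI : Iso C c)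
    (hD : DD (limDens 0 c C) = 0) (κ : ℝ) :
    ∑ a, (2 * (slice (tt C c) a * ((-(1 / 4) : ℝ) • slice (tt C c) a)
        + (A2 C c a - κ • 1)).trace
      + ((slice (tt C c) a + (-(1 / 4) : ℝ) • slice (tt C c) a)
        * (slice (tt C c) a + (-(1 / 4) : ℝ) • slice (tt C c) a)).trace)
      = -(7 / 4 * n) - 2 * κ * n * n := by
  have e1 : ∀ a, 2 * (slice (tt C c) a * ((-(1 / 4) : ℝ) • slice (tt C c) a)
        + (A2 C c a - κ • 1)).trace
      + ((slice (tt C c) a + (-(1 / 4) : ℝ) • slice (tt C c) a)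
        * (slice (tt C c) a + (-(1 / 4) : ℝ) • slice (tt C c) a)).trace =
      1 / 16 * ∑ i, ∑ j, slice (tt C c) a i j ^ 2 + 2 * (A2 C c a).trace - 2 * κ * n := by
    intro a
    have e2 : slice (tt C c) a + (-(1 / 4) : ℝ) • slice (tt C c) a =
        (3 / 4 : ℝ) • slice (tt C c) a := by
      ext i j
      simp only [Matrix.add_apply, Matrix.smul_apply, smul_eq_mul]
      ring
    rw [e2, Matrix.smul_mul, Matrix.mul_smul, Matrix.mul_smul, smul_smul, Matrix.trace_add,
      Matrix.trace_sub, Matrix.trace_smul, Matrix.trace_smul, Matrix.trace_smul,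
      trace_slice_sq a, Matrix.trace_one, Fintype.card_fin, smul_eq_mul, smul_eq_mul,
      smul_eq_mul]
    ring
  simp only [e1]
  rw [Finset.sum_sub_distrib, Finset.sum_add_distrib, ← Finset.mul_sum, ← Finset.mul_sum,
    ← ip_slice, ip_eqD hn hP hZ h hI hD]
  have e2 : ∑ a, (A2 C c a).trace = - n := by
    unfold Matrix.trace
    simp only [Matrix.diag_apply]
    rw [Finset.sum_comm]
    simp only [sum_A2 hn h]
    simp [kd]
  rw [e2]
  simp only [Finset.sum_const, Finset.card_univ, Fintype.card_fin, nsmul_eq_mul]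
  ring

lemma fs_zero_T3 (hI : Iso C c) (a : Fin n) : T3 (fs C c a 0) = tt C c := by
  rw [fs_zero, T3_zero hI]

lemma fs_zero_cov (hI : Iso C c) (a : Fin n) : covF (fs C c a 0) = 1 := by
  ext i j
  have e1 := hI.m2 i j
  have e2 := hI.m1 i
  unfold E0 at e1 e2
  rw [fs_zero]
  unfold covF
  rw [of_apply, e1, e2, zero_mul, sub_zero, Matrix.one_apply]

/-- the key inequality -/
theorem keyD (hn : 0 < n) (hP : LimD r1 n) (hZ : LimZ n) (h : Adm C c α b) (hI : Iso C c)
    (hD : DD (limDens 0 c C) = 0) (δ : ℝ) (hδ : 0 < δ) :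
    27 * n - 12 * δ * n + S4 (fun a i j k => kk C c a i j k ^ 2)
      - 3 * S4 (fun a i j k => kk C c a i j k * GG (tt C c) a i j k)
      + 9 / 16 * S4 (fun a i j k => GG (tt C c) a i j k * GG (tt C c) a j i k) ≤ 0 := by
  have hn' : (0 : ℝ) < n := by exact_mod_cast hn
  have hα : 0 < α / 2 := half_pos h.ha
  obtain ⟨x0, hx0, hP'⟩ := hP δ hδ
  have hSs : ∀ a i j, (-slice (tt C c) a) i j = (-slice (tt C c) a) j i := fun a i j => by
    rw [Matrix.neg_apply, Matrix.neg_apply, slice_symm]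
  have hXs : ∀ a i j, ((-(1 / 4) : ℝ) • slice (tt C c) a) i j =
      ((-(1 / 4) : ℝ) • slice (tt C c) a) j i := fun a i j => by
    rw [Matrix.smul_apply, Matrix.smul_apply, slice_symm]
  have hTJ : ∀ a, TJ (fun s => T3 (fs C c a s)) (tt C c) (kk C c a) (T2 C c a) :=
    fun a i j k => T3_jet hn h hI a i j k
  have hA : ∀ a, MJ (fun s => covF (fs C c a s)) 1 (slice (tt C c) a) (A2 C c a) :=
    fun a i j => cov_jet hn h hI a i j
  obtain ⟨κ, hκ⟩ : ∃ κ : ℝ, κ = (r1 - δ) / n := ⟨_, rfl⟩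
  obtain ⟨κ', hκ'⟩ : ∃ κ' : ℝ, κ' = (3 - r1 / 2 - δ) / n := ⟨_, rfl⟩
  have hMJ : ∀ a, MJ (fun s => (covF (fs C c a s) - (κ' * s ^ 2) • (covF (fs C c a s)
      * covF (fs C c a s))) * (1 + s • ((-(1 / 4) : ℝ) • slice (tt C c) a))) 1
      (slice (tt C c) a + (-(1 / 4) : ℝ) • slice (tt C c) a)
      (slice (tt C c) a * ((-(1 / 4) : ℝ) • slice (tt C c) a) + (A2 C c a - κ' • 1)) := by
    intro a
    refine (((hA a).sub (((hA a).mul (hA a)).sq_smul κ')).mul (MJ.lin _)).congr ?_ ?_ ?_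
    · simp
    · simp [add_comm]
    · simp
  have hJ : ∀ a, J2 (𝓝 0) (fun s => dL (κ * s ^ 2) (covF (fs C c a s))
      (1 + s • ((-(1 / 4) : ℝ) • slice (tt C c) a)) (1 + s • (-slice (tt C c) a))
        (T3 (fs C c a s))
      - dR (κ' * s ^ 2) (covF (fs C c a s)) (1 + s • ((-(1 / 4) : ℝ) • slice (tt C c) a)))
      _ _ _ := fun a =>
    (N3_jet (hTJ a) (MJ_inv (hA a) κ) tt_symm (kk_symm a) (hXs a) (hSs a)).sub
      ((MJ_sqtr (hMJ a)).const_mul 4)
  have hS := J2.sum Finset.univ fun a _ => hJ a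
  have h7 := (hS.le_test (by
    have hev : ∀ᶠ s : ℝ in 𝓝 (0 : ℝ), ∀ a,
        (x0 • (1 : Mat n) - (s ^ 2 / n) • covF (fs C c a s)).PosSemidef := by
      rw [eventually_all]
      exact fun a => ev_small hn h hI a hx0
    have hev2 : ∀ᶠ s : ℝ in 𝓝 (0 : ℝ), ∀ a,
        (1 + s • ((-(1 / 4) : ℝ) • slice (tt C c) a)).PosSemidef := by
      rw [eventually_all]
      exact fun a => psd_near (hXs a)
    filter_upwards [hev, hev2, ball_mem_nhds (0 : ℝ) hα] with s hs1 hs3 hs2
    rw [mem_ball, dist_zero_right, Real.norm_eq_abs] at hs2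
    refine Finset.sum_le_sum fun a _ => ?_
    rw [ip_eqD hn hP hZ h hI hD, sub_self]
    rw [sub_nonpos]
    rcases eq_or_ne s 0 with rfl | hs0
    · rw [fs_zero_T3 hI, fs_zero_cov hI]
      unfold dL dR
      have e1 : (2 : ℝ) • (1 + (0 : ℝ) • (-slice (tt C c) a)) - (1 + (0 : ℝ) •
          (-slice (tt C c) a)) * 1 * (1 + (0 : ℝ) • (-slice (tt C c) a))
          + (κ * 0 ^ 2) • (1 : Mat n) = 1 := by
        simp only [zero_smul, add_zero, mul_one, two_smul, ne_eq, OfNat.ofNat_ne_zero,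
          not_false_eq_true, zero_pow, mul_zero]
        exact add_sub_cancel_right _ _
      rw [e1, zero_smul, add_zero, N3_one, ip_eqD hn hP hZ h hI hD]
      simp
    · have ht : 0 < s ^ 2 / n := by positivity
      have hMs : (1 + s • (-slice (tt C c) a)).IsSymm := by
        ext i j
        rw [Matrix.transpose_apply, Matrix.add_apply, Matrix.add_apply, Matrix.smul_apply,
          Matrix.smul_apply, hSs a j i, Matrix.one_apply, Matrix.one_apply]
        simp only [eq_comm]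
      have := hP' C _ _ _ (adm_path h a hs2.le) (s ^ 2 / n) ht (hs1 a) _ (hs3 a) _ hMs
      have e : (r1 - δ) * (s ^ 2 / n) = κ * s ^ 2 := by rw [hκ]; ring
      have e' : (3 - r1 / 2 - δ) * (s ^ 2 / n) = κ' * s ^ 2 := by rw [hκ']; ring
      rw [e, e'] at this
      exact this)).2
  rw [Finset.sum_sub_distrib, ← Finset.mul_sum, sum_left hn hP hZ h hI hD κ,
    sum_right hn hP hZ h hI hD κ'] at h7
  have e1 : κ * n * n = (r1 - δ) * n := by
    rw [hκ]
    field_simp
  have e2 : κ' * n * n = (3 - r1 / 2 - δ) * n := by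
    rw [hκ']
    field_simp
  have e3 : 4 * κ * n * n = 4 * ((r1 - δ) * n) := by rw [← e1]; ring
  have e4 : 2 * κ' * n * n = 2 * ((3 - r1 / 2 - δ) * n) := by rw [← e2]; ring
  rw [e3, e4] at h7
  linarith

/-- the slices commute -/
theorem slices_commuteD (hn : 0 < n) (hP : LimD r1 n) (hZ : LimZ n) (h : Adm C c α b)
    (hI : Iso C c) (hD : DD (limDens 0 c C) = 0) (i j : Fin n) :
    slice (tt C c) i * slice (tt C c) j = slice (tt C c) j * slice (tt C c) i :=
  commute_of_keyD tt_symm (hMD hn hP hZ h hI hD) (kk C c) (fun a => (kk_symm a).1)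
    (fun a => (kk_symm a).2) (keyD hn hP hZ h hI hD) i j

end Vale.Agent.P254.Eq630
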