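import Vale.Agent.P254.H630.EqD3
import Vale.Agent.P254.H657.EqMain

/-! P254, equality case for the functional `(DD)` (helper630), part 4: the normalised equality case,
the limit passage, and the equality case for bodies. -/

open MeasureTheory Set Matrix Filter Topology Metric

namespace Vale.Agent.P254.Eq630

open R304 Eq657
open L (Mat Ten NN N3 frT Vec J1 J2)

variable {n : ℕ} {C : Set (Fin n → ℝ)} {c : Fin n → ℝ} {α b r1 : ℝ}

lemma N3_rank1 (e : Fin n → ℝ) (T : Ten n) :
    N3 1 (Matrix.of fun i j => e i * e j) (Matrix.of fun i j => e i * e j) T T =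
      ∑ a, (∑ j, ∑ k, e j * e k * T a j k) ^ 2 := by
  unfold N3
  refine Finset.sum_congr rfl fun a _ => ?_
  have h1 : ∀ b c, ∑ a', ∑ b', ∑ c', (1 : Mat n) a a' * (Matrix.of fun i j => e i * e j) b b' *
      (Matrix.of fun i j => e i * e j) c c' * T a b c * T a' b' c' =
      (e b * e c * T a b c) * ∑ b', ∑ c', e b' * e c' * T a b' c' := by
    intro b c
    rw [Finset.sum_eq_single a]
    · rw [Finset.mul_sum]
      refine Finset.sum_congr rfl fun b' _ => ?_
      rw [Finset.mul_sum]
      refine Finset.sum_congr rfl fun c' _ => ?_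
      rw [Matrix.one_apply_eq, of_apply, of_apply]
      ring
    · intro a' _ ha
      refine Finset.sum_eq_zero fun b' _ => Finset.sum_eq_zero fun c' _ => ?_
      rw [Matrix.one_apply_ne (Ne.symm ha)]
      ring
    · intro h
      exact absurd (Finset.mem_univ a) h
  simp only [h1]
  rw [sq, Finset.sum_mul]
  refine Finset.sum_congr rfl fun b _ => ?_
  rw [Finset.sum_mul]

lemma sq_rank1 {e : Fin n → ℝ} (he : e ⬝ᵥ e = 1) :
    ((Matrix.of fun i j => e i * e j : Mat n) ^ 2).trace = 1 := by
  have h1 : (Matrix.of fun i j => e i * e j : Mat n) * (Matrix.of fun i j => e i * e j) =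
      Matrix.of fun i j => e i * e j := by
    ext i j
    rw [Matrix.mul_apply]
    simp only [of_apply]
    have : ∑ x, e i * e x * (e x * e j) = e i * e j * (e ⬝ᵥ e) := by
      unfold dotProduct
      rw [Finset.mul_sum]
      exact Finset.sum_congr rfl fun x _ => by ring
    rw [this, he, mul_one]
  rw [pow_two, h1]
  unfold Matrix.trace dotProduct at *
  simpa using he

lemma cs_rank1 {e : Fin n → ℝ} (he : e ⬝ᵥ e = 1) (T : Ten n) :
    (∑ i, ∑ j, ∑ k, e i * e j * e k * T i j k) ^ 2 ≤ ∑ a, (∑ j, ∑ k, e j * e k * T a j k) ^ 2 := by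
  have h1 : ∑ i, ∑ j, ∑ k, e i * e j * e k * T i j k =
      ∑ i, e i * ∑ j, ∑ k, e j * e k * T i j k := by
    refine Finset.sum_congr rfl fun i _ => ?_
    rw [Finset.mul_sum]
    refine Finset.sum_congr rfl fun j _ => ?_
    rw [Finset.mul_sum]
    exact Finset.sum_congr rfl fun k _ => by ring
  rw [h1]
  have h2 := Finset.sum_mul_sq_le_sq_mul_sq Finset.univ e fun i => ∑ j, ∑ k, e j * e k * T i j k
  have h3 : ∑ i, e i ^ 2 = 1 := by
    rw [← he]
    unfold dotProduct
    exact Finset.sum_congr rfl fun i _ => sq (e i)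
  rw [h3, one_mul] at h2
  exact h2

/-- the normalised equality case -/
theorem norm_caseD (hP : LimD r1 n) (hZ : LimZ n) (h : Adm C c α b) (hN : Norm C c) :
    ∃ (A : Mat n) (v : Fin n → ℝ), A.det ≠ 0 ∧ C = {x | ∀ i, 0 ≤ (A *ᵥ x + v) i} := by
  rcases Nat.eq_zero_or_pos n with hn | hn
  · subst hn
    refine ⟨1, 0, by simp, ?_⟩
    obtain ⟨x, hx⟩ := h.int
    ext y
    simp only [mem_ofPred_eq, IsEmpty.forall_iff, iff_true]
    rw [Subsingleton.elim y x]
    exact interior_subset hx
  · have hI := hN.iso
    have hT : T3 (limDens 0 c C) = tt C c := T3_zero hI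
    obtain ⟨O, hO, hdiag⟩ := H54.E3 n (tt C c) tt_symm
      (fun i j => slices_commuteD hn hP hZ h hI hN.dd i j)
      (fun i j => by
        have h1 := hMD hn hP hZ h hI hN.dd i j
        rw [← h1]
        unfold Matrix.trace
        simp only [Matrix.diag_apply, Matrix.mul_apply, slice, of_apply]
        refine Finset.sum_congr rfl fun a _ => Finset.sum_congr rfl fun k _ => ?_
        rw [tt_comm12 i a k, tt_comm23 a i k, tt_comm12 j k a, tt_comm23 k j a, tt_comm12 k a j])
      (fun e he => by
        have h1 := pineq0D hn hP h hI (psd_rank1 e)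
        rw [N3_rank1, sq_rank1 he, mul_one] at h1
        exact (cs_rank1 he _).trans h1)
    have hrow : ∀ i, (O i) ⬝ᵥ (O i) = 1 := by
      intro i
      have := congrFun (congrFun hO i) i
      rw [Matrix.mul_apply, Matrix.one_apply_eq] at this
      exact this
    have hlin : ∀ i, E0 C c (fun x => O i ⬝ᵥ x) = 0 := by
      intro i
      have e : (fun x : Fin n → ℝ => O i ⬝ᵥ x) = fun x => ∑ j, O i j * x j := rfl
      rw [e, E0_sum h Finset.univ (fun j x => O i j * x j) fun j _ => pg_cmul (pg_coord j) _]
      refine Finset.sum_eq_zero fun j _ => ?_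
      have : E0 C c (fun x => O i j * x j) = O i j * E0 C c fun x => x j := by
        unfold E0 Ef
        rw [← mul_div_assoc, ← integral_const_mul]
        congr 1
        exact integral_congr_ae (Eventually.of_forall fun x => by ring)
      rw [this, hI.m1, mul_zero]
    have hcm : ∀ (r : ℝ) (p : (Fin n → ℝ) → ℝ), E0 C c (fun x => r * p x) = r * E0 C c p := by
      intro r p
      unfold E0 Ef
      rw [← mul_div_assoc, ← integral_const_mul]
      congr 1
      exact integral_congr_ae (Eventually.of_forall fun x => by ring)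
    have hsq : ∀ i, E0 C c (fun x => (O i ⬝ᵥ x) ^ 2) = 1 := by
      intro i
      have e : (fun x : Fin n → ℝ => (O i ⬝ᵥ x) ^ 2) =
          fun x => ∑ j, ∑ k, O i j * O i k * (x j * x k) := by
        ext x
        unfold dotProduct
        rw [sq, Finset.sum_mul_sum]
        exact Finset.sum_congr rfl fun j _ => Finset.sum_congr rfl fun k _ => by ring
      have hpg : ∀ j k, PolyGrowth fun x : Fin n → ℝ => O i j * O i k * (x j * x k) :=
        fun j k => pg_cmul (pg_coord2 j k) _
      rw [e, E0_sum h Finset.univ (fun j x => ∑ k, O i j * O i k * (x j * x k)) fun j _ => ?_]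
      · have e1 : ∀ j, E0 C c (fun x => ∑ k, O i j * O i k * (x j * x k)) = O i j * O i j := by
          intro j
          rw [E0_sum h Finset.univ (fun k x => O i j * O i k * (x j * x k)) fun k _ => hpg j k]
          simp only [hcm, hI.m2]
          simp
        simp only [e1]
        exact hrow i
      · exact pg_sum Finset.univ fun k _ => hpg j k
    have hcu : ∀ i, E0 C c (fun x => (O i ⬝ᵥ x) ^ 3) = 2 := by
      intro i
      have e : (fun x : Fin n → ℝ => (O i ⬝ᵥ x) ^ 3) =
          fun x => ∑ j, ∑ k, ∑ l, O i j * O i k * O i l * (x j * x k * x l) := by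
        ext x
        unfold dotProduct
        rw [pow_succ, sq, Finset.sum_mul_sum, Finset.sum_mul]
        refine Finset.sum_congr rfl fun j _ => ?_
        rw [Finset.sum_mul]
        refine Finset.sum_congr rfl fun k _ => ?_
        rw [Finset.mul_sum]
        exact Finset.sum_congr rfl fun l _ => by ring
      have hpg : ∀ j k l, PolyGrowth fun x : Fin n → ℝ =>
          O i j * O i k * O i l * (x j * x k * x l) := fun j k l => pg_cmul (pg3 j k l) _
      rw [e, E0_sum h Finset.univ _ fun j _ => pg_sum Finset.univ fun k _ =>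
        pg_sum Finset.univ fun l _ => hpg j k l]
      have e1 : ∀ j, E0 C c (fun x => ∑ k, ∑ l, O i j * O i k * O i l * (x j * x k * x l)) =
          ∑ k, ∑ l, O i j * O i k * O i l * tt C c j k l := by
        intro j
        rw [E0_sum h Finset.univ _ fun k _ => pg_sum Finset.univ fun l _ => hpg j k l]
        refine Finset.sum_congr rfl fun k _ => ?_
        rw [E0_sum h Finset.univ _ fun l _ => hpg j k l]
        refine Finset.sum_congr rfl fun l _ => ?_
        rw [hcm]
        rfl
      simp only [e1]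
      have h9 := hdiag i i i
      rw [if_pos ⟨rfl, rfl⟩] at h9
      exact h9
    have hC : C = {x | ∀ i, -1 ≤ (O *ᵥ x) i} := by
      refine H54.E5 n C c α b h hN O hO fun x hx i => ?_
      exact H54.E4 n C c α b h (O i) (hlin i) (hsq i) (hcu i) x hx
    refine ⟨O, fun _ => 1, ?_, ?_⟩
    · intro h0
      have := congrArg Matrix.det hO
      rw [Matrix.det_mul, h0, zero_mul, Matrix.det_one] at this
      exact zero_ne_one this
    · conv_lhs => rw [hC]
      ext x
      simp only [mem_ofPred_eq, Pi.add_apply]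
      exact forall_congr' fun i => by constructor <;> intro hx <;> linarith

/-- the limit passage -/
theorem limD {r1 : ℝ} (h : SmallD r1) (n : ℕ) : LimD r1 n := by
  intro δ hδ
  obtain ⟨x0, hx0, hS⟩ := h n δ hδ
  refine ⟨x0 / 2, half_pos hx0, fun C c a b hA t ht hsm D hD M hM => ?_⟩
  obtain ⟨K, s, hK1, hK2, hK3, hs, hs0, hc, hT, -⟩ := Eq325.approx hA ht
  have hev := Eq325.eventually_small hx0 hs0 hc hsm
  have hts : Tendsto (fun k => t + s k) atTop (𝓝 t) := by simpa using hs0.const_add t
  refine le_of_tendsto_of_tendsto (tendsto_dL (hts.const_mul (r1 - δ)) hc hT D M)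
    (tendsto_dR (hts.const_mul (3 - r1 / 2 - δ)) hc D) ?_
  filter_upwards [hev] with k hk
  exact hS (K k) (hK1 k) (hK2 k) (hK3 k) (s k) (s k) (hs k) (hs k) (t + s k)
    (by have := hs k; linarith) c hk D hD M hM

/-- **the equality case** -/
theorem stmtEq_ofD {r1 : ℝ} (hP : ∀ n, LimD r1 n) (hZ : ∀ n, LimZ n) : StmtEq :=
  Eq934.E6 fun n _ _ _ _ h hN => norm_caseD (hP n) (hZ n) h hN

/-- the equality case for bodies, from the output of the sharp theory -/
theorem isSimplex_of_eqD {r1 : ℝ} (hP : SmallD r1) (hZ : SmallZ) (n : ℕ)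
    (K S : Set (Fin n → ℝ)) (hn : 1 ≤ n) (hK : IsConvexBody K) (hS : IsSimplex S)
    (h : isoConst K = isoConst S) : IsSimplex K :=
  Eq325.stmtE7 (stmtEq_ofD (limD hP) (Eq325.stmtE1.2 hZ)) n K S hn hK hS h

end Vale.Agent.P254.Eq630
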