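import Vale.Agent.P254.H630.EqD4
import Vale.Agent.P254.H325.E0

/-! P254, equality case for the functional `(DD)` (helper630), part 5: from the matrix inequality
`(DD)` in frames to the small `B` form. -/

open MeasureTheory Set Matrix Filter Topology Metric

namespace Vale.Agent.P254.Eq630

open R304 Eq657
open Vale.Agent.P254.L
open scoped Kronecker

variable {n : ℕ}

/-- `(DD)` for `(A, B, T)` in frames `L A Lᵀ = 1`, `B = Lᵀ diag β L`:
`∑ r (β_a) tr (T_a D T_a D) ≤ ∑ σ (β_i) σ (β_j) D_ij ^ 2` -/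
def DDfr (r σ : ℝ → ℝ) (A B : Mat n) (T : Ten n) : Prop :=
  ∀ (L : Mat n) (β : Vec n), IsUnit L → L * A * Lᵀ = 1 → B = Lᵀ * Matrix.diagonal β * L →
    (∀ i, β i ∈ Ioo (0 : ℝ) 1) → ∀ D : Mat n, D.PosSemidef →
      N3 (Matrix.diagonal fun a => r (β a)) D D (frT L T) (frT L T) ≤
        ((Matrix.diagonal (fun i => σ (β i)) * D) ^ 2).trace

/-- `(DD)` for all nice measures -/
def StDD (r σ : ℝ → ℝ) : Prop :=
  ∀ (n : ℕ) (D : TiltData n) (B : Mat n), B.PosDef → ∀ c : Vec n,
    DDfr r σ (D.A B c) B (D.T B c)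

/-! ### algebra of `N3` -/

/-- Kronecker product of three matrices -/
noncomputable def K3' (P Q R : Mat n) :
    Matrix (Fin n × Fin n × Fin n) (Fin n × Fin n × Fin n) ℝ := P ⊗ₖ (Q ⊗ₖ R)

theorem N3_eq' (P Q R : Mat n) (T T' : Ten n) :
    N3 P Q R T T' = Vale.Agent.P254.Fr.vec3 T ⬝ᵥ K3' P Q R *ᵥ Vale.Agent.P254.Fr.vec3 T' := by
  unfold N3 dotProduct mulVec dotProduct K3' Vale.Agent.P254.Fr.vec3
  simp only [Fintype.sum_prod_type, Matrix.kroneckerMap_apply, Finset.mul_sum]
  refine Finset.sum_congr rfl fun a _ => Finset.sum_congr rfl fun b _ =>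
    Finset.sum_congr rfl fun c _ => Finset.sum_congr rfl fun a' _ =>
    Finset.sum_congr rfl fun b' _ => Finset.sum_congr rfl fun c' _ => ?_
  ring

theorem K3'_conj (L P Q R : Mat n) :
    (Vale.Agent.P254.Fr.K3 L)ᵀ * K3' P Q R * Vale.Agent.P254.Fr.K3 L =
      K3' (Lᵀ * P * L) (Lᵀ * Q * L) (Lᵀ * R * L) := by
  rw [Vale.Agent.P254.Fr.K3_transpose]
  unfold Vale.Agent.P254.Fr.K3 K3'
  rw [← Matrix.mul_kronecker_mul, ← Matrix.mul_kronecker_mul, ← Matrix.mul_kronecker_mul,
    ← Matrix.mul_kronecker_mul]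

theorem N3_frT (L P Q R : Mat n) (T T' : Ten n) :
    N3 P Q R (frT L T) (frT L T') = N3 (Lᵀ * P * L) (Lᵀ * Q * L) (Lᵀ * R * L) T T' := by
  rw [N3_eq', N3_eq', Vale.Agent.P254.Fr.vec3_frT, Vale.Agent.P254.Fr.vec3_frT, ← K3'_conj,
    Matrix.mulVec_mulVec, Matrix.mul_assoc,
    ← Matrix.mulVec_mulVec (Vale.Agent.P254.Fr.vec3 T') (Vale.Agent.P254.Fr.K3 L)ᵀ,
    dotProduct_mulVec (Vale.Agent.P254.Fr.vec3 T), Matrix.vecMul_transpose]

theorem N3_nonneg {P Q R : Mat n} (hP : P.PosSemidef) (hQ : Q.PosSemidef) (hR : R.PosSemidef)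
    (T : Ten n) : 0 ≤ N3 P Q R T T := by
  rw [N3_eq']
  have h := (hP.kronecker (hQ.kronecker hR)).dotProduct_mulVec_nonneg
    (Vale.Agent.P254.Fr.vec3 T)
  rwa [star_trivial] at h

theorem N3_add1 (P P' Q R : Mat n) (T T' : Ten n) :
    N3 (P + P') Q R T T' = N3 P Q R T T' + N3 P' Q R T T' := by
  unfold N3
  simp only [← Finset.sum_add_distrib]
  refine Finset.sum_congr rfl fun a _ => Finset.sum_congr rfl fun b _ =>
    Finset.sum_congr rfl fun c _ => Finset.sum_congr rfl fun a' _ =>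
    Finset.sum_congr rfl fun b' _ => Finset.sum_congr rfl fun c' _ => ?_
  rw [Matrix.add_apply]
  ring

theorem N3_smul1 (x : ℝ) (P Q R : Mat n) (T T' : Ten n) :
    N3 (x • P) Q R T T' = x * N3 P Q R T T' := by
  unfold N3
  simp only [Finset.mul_sum]
  refine Finset.sum_congr rfl fun a _ => Finset.sum_congr rfl fun b _ =>
    Finset.sum_congr rfl fun c _ => Finset.sum_congr rfl fun a' _ =>
    Finset.sum_congr rfl fun b' _ => Finset.sum_congr rfl fun c' _ => ?_
  rw [Matrix.smul_apply, smul_eq_mul]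
  ring

theorem N3_mono1 {P P' Q R : Mat n} (hP : (P - P').PosSemidef) (hQ : Q.PosSemidef)
    (hR : R.PosSemidef) (T : Ten n) : N3 P' Q R T T ≤ N3 P Q R T T := by
  have h1 := N3_nonneg hP hQ hR T
  have h2 := N3_add1 P' (P - P') Q R T T
  rw [add_sub_cancel] at h2
  linarith

/-- `tr ((diag d D) ^ 2)` -/
theorem trace_diag_sq (d : Vec n) (D : Mat n) (hD : ∀ i j, D i j = D j i) :
    ((Matrix.diagonal d * D) ^ 2).trace = ∑ i, ∑ j, d i * d j * D i j ^ 2 := by
  rw [pow_two]
  unfold Matrix.trace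
  simp only [Matrix.diag_apply, Matrix.mul_apply]
  refine Finset.sum_congr rfl fun i _ => Finset.sum_congr rfl fun j _ => ?_
  simp only [Matrix.diagonal_apply]
  rw [Finset.sum_eq_single i, Finset.sum_eq_single j]
  · simp only [if_true]
    rw [hD j i]
    ring
  · intro k _ hk
    rw [if_neg (Ne.symm hk), zero_mul]
  · intro h
    exact absurd (Finset.mem_univ j) h
  · intro k _ hk
    rw [if_neg (Ne.symm hk), zero_mul]
  · intro h
    exact absurd (Finset.mem_univ i) h

theorem trace_sq_mono {d d' : Vec n} (h0 : ∀ i, 0 ≤ d i) (h : ∀ i, d i ≤ d' i) {D : Mat n}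
    (hD : ∀ i j, D i j = D j i) :
    ((Matrix.diagonal d * D) ^ 2).trace ≤ ((Matrix.diagonal d' * D) ^ 2).trace := by
  rw [trace_diag_sq d D hD, trace_diag_sq d' D hD]
  refine Finset.sum_le_sum fun i _ => Finset.sum_le_sum fun j _ => ?_
  exact mul_le_mul_of_nonneg_right (mul_le_mul (h i) (h j) (h0 j) ((h0 i).trans (h i)))
    (sq_nonneg _)

/-- `A⁻¹ ≥ 2 M - M A M` -/
theorem inv_ge {A Ai M : Mat n} (hA : A.PosSemidef) (h1 : Ai * A = 1) (h2 : A * Ai = 1)
    (hAi : Aiᵀ = Ai) (hM : M.IsSymm) : (Ai - ((2 : ℝ) • M - M * A * M)).PosSemidef := by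
  have h := hA.mul_mul_conjTranspose_same (M - Ai)
  rw [Matrix.conjTranspose_eq_transpose_of_trivial, Matrix.transpose_sub, hAi, hM.eq] at h
  have e : (M - Ai) * A * (M - Ai) = Ai - ((2 : ℝ) • M - M * A * M) := by
    rw [Matrix.sub_mul, h1, Matrix.mul_sub, Matrix.sub_mul, Matrix.sub_mul, Matrix.mul_assoc M A Ai,
      h2, Matrix.mul_one, Matrix.one_mul, Matrix.one_mul, two_smul]
    abel
  rw [e] at h
  exact h

/-- `(DD)` for `B = t • 1`, small `t`, without the spectral functions -/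
theorem smallD_core {r σ : ℝ → ℝ} {κ κ' q x0 t : ℝ} (hq : 0 < q) (hx0 : x0 < 1)
    (hr : ∀ x, 0 < x → x ≤ x0 → q ^ 2 * (1 + κ * x) ≤ r x)
    (hσ0 : ∀ x, 0 < x → x ≤ x0 → 0 ≤ σ x)
    (hσ : ∀ x, 0 < x → x ≤ x0 → σ x ≤ 2 * q * (1 - κ' * x)) (ht : 0 < t)
    {A : Mat n} (hA : A.PosDef) {T : Ten n} (hDD : DDfr r σ A (t • (1 : Mat n)) T)
    (hsm : (x0 • (1 : Mat n) - t • A).PosSemidef) {D : Mat n} (hD : D.PosSemidef) {M : Mat n}
    (hM : M.IsSymm) : dL (κ * t) A D M T ≤ dR (κ' * t) A D := by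
  obtain ⟨U, lam, hU1, hU2, hAU, hlam⟩ := spec_symm hA.isHermitian
  have hl0 : ∀ i, 0 < lam i := fun i => by rw [hlam]; exact hA.eigenvalues_pos i
  obtain ⟨d, hd0, hd2⟩ : ∃ d : Vec n, (∀ i, 0 < d i) ∧ ∀ i, d i * d i = lam i :=
    ⟨fun i => Real.sqrt (lam i), fun i => Real.sqrt_pos.2 (hl0 i),
      fun i => Real.mul_self_sqrt (hl0 i).le⟩
  have hcov : Uᵀ * A * U = Matrix.diagonal lam := by
    rw [hAU]
    calc Uᵀ * (U * Matrix.diagonal lam * Uᵀ) * U
        = (Uᵀ * U) * Matrix.diagonal lam * (Uᵀ * U) := by simp only [Matrix.mul_assoc]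
      _ = _ := by rw [hU1, Matrix.one_mul, Matrix.mul_one]
  have hlx : ∀ i, t * lam i ≤ x0 := by
    intro i
    have h1 := hsm.mul_mul_conjTranspose_same Uᵀ
    rw [Matrix.conjTranspose_eq_transpose_of_trivial, Matrix.transpose_transpose] at h1
    have e : Uᵀ * (x0 • (1 : Mat n) - t • A) * U = x0 • (1 : Mat n) - t • Matrix.diagonal lam := by
      rw [Matrix.mul_sub, Matrix.sub_mul, Matrix.mul_smul, Matrix.smul_mul, Matrix.mul_one, hU1,
        Matrix.mul_smul, Matrix.smul_mul, hcov]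
    rw [e] at h1
    have := h1.diag_nonneg (i := i)
    simp at this
    linarith
  -- the frame
  obtain ⟨L, hL⟩ : ∃ L : Mat n, L = Matrix.diagonal (fun i => (d i)⁻¹) * Uᵀ := ⟨_, rfl⟩
  have hLT : Lᵀ = U * Matrix.diagonal (fun i => (d i)⁻¹) := by
    rw [hL, Matrix.transpose_mul, Matrix.transpose_transpose, Matrix.diagonal_transpose]
  have hLA : L * A = Matrix.diagonal d * Uᵀ := by
    rw [hL, hAU]
    calc Matrix.diagonal (fun i => (d i)⁻¹) * Uᵀ * (U * Matrix.diagonal lam * Uᵀ)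
        = Matrix.diagonal (fun i => (d i)⁻¹) * (Uᵀ * U) * Matrix.diagonal lam * Uᵀ := by
          simp only [Matrix.mul_assoc]
      _ = Matrix.diagonal d * Uᵀ := by
          rw [hU1, Matrix.mul_one, Matrix.diagonal_mul_diagonal]
          congr 2
          funext i
          rw [← hd2 i, ← mul_assoc, inv_mul_cancel₀ (hd0 i).ne', one_mul]
  have hLAL : L * A * Lᵀ = 1 := by
    rw [hLA, hLT]
    calc Matrix.diagonal d * Uᵀ * (U * Matrix.diagonal fun i => (d i)⁻¹)
        = Matrix.diagonal d * (Uᵀ * U) * Matrix.diagonal fun i => (d i)⁻¹ := by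
          simp only [Matrix.mul_assoc]
      _ = 1 := by
          rw [hU1, Matrix.mul_one, Matrix.diagonal_mul_diagonal, ← Matrix.diagonal_one]
          congr 1
          funext i
          exact mul_inv_cancel₀ (hd0 i).ne'
  have hunit : IsUnit L := by
    have : L * (A * Lᵀ) = 1 := by rw [← Matrix.mul_assoc]; exact hLAL
    exact ⟨⟨L, A * Lᵀ, this, mul_eq_one_comm.1 this⟩, rfl⟩
  have hconj : ∀ v : Vec n, Lᵀ * Matrix.diagonal v * L =
      U * Matrix.diagonal (fun i => v i / lam i) * Uᵀ := by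
    intro v
    rw [hLT, hL]
    calc U * Matrix.diagonal (fun i => (d i)⁻¹) * Matrix.diagonal v
          * (Matrix.diagonal (fun i => (d i)⁻¹) * Uᵀ)
        = U * (Matrix.diagonal (fun i => (d i)⁻¹) * Matrix.diagonal v
          * Matrix.diagonal (fun i => (d i)⁻¹)) * Uᵀ := by simp only [Matrix.mul_assoc]
      _ = _ := by
          rw [Matrix.diagonal_mul_diagonal, Matrix.diagonal_mul_diagonal]
          congr 3
          funext i
          rw [← hd2 i]
          have := (hd0 i).ne'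
          field_simp
  have hB : t • (1 : Mat n) = Lᵀ * Matrix.diagonal (fun i => t * lam i) * L := by
    rw [hconj]
    have e : (fun i => t * lam i / lam i) = fun _ : Fin n => t := by
      funext i
      exact mul_div_cancel_right₀ t (hl0 i).ne'
    rw [e, ← Matrix.smul_one_eq_diagonal, Matrix.mul_smul, Matrix.mul_one, Matrix.smul_mul, hU2]
  have hD' : (L * A * D * (L * A)ᵀ).PosSemidef := by
    have h1 := hD.mul_mul_conjTranspose_same (L * A)
    rwa [Matrix.conjTranspose_eq_transpose_of_trivial] at h1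
  have hATt : Aᵀ = A := by
    have := hA.isHermitian.eq
    rwa [Matrix.conjTranspose_eq_transpose_of_trivial] at this
  have h1 := hDD L (fun i => t * lam i) hunit hLAL hB (fun i =>
    ⟨mul_pos ht (hl0 i), (hlx i).trans_lt hx0⟩) _ hD'
  rw [N3_frT] at h1
  have hLLA : Lᵀ * (L * A) = 1 := mul_eq_one_comm.1 hLAL
  have hback : Lᵀ * (L * A * D * (L * A)ᵀ) * L = D := by
    have e2 : (L * A)ᵀ * L = 1 := by
      have := congrArg Matrix.transpose hLLA
      rwa [Matrix.transpose_mul, Matrix.transpose_transpose, Matrix.transpose_one] at this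
    calc Lᵀ * (L * A * D * (L * A)ᵀ) * L = (Lᵀ * (L * A)) * D * ((L * A)ᵀ * L) := by
          simp only [Matrix.mul_assoc]
      _ = D := by rw [hLLA, e2, Matrix.one_mul, Matrix.mul_one]
  rw [hback, hconj] at h1
  -- the left side
  obtain ⟨Ai, hAi⟩ : ∃ Ai : Mat n, Ai = U * Matrix.diagonal (fun i => 1 / lam i) * Uᵀ := ⟨_, rfl⟩
  have hAiA : Ai * A = 1 := by
    rw [hAi, hAU]
    calc U * Matrix.diagonal (fun i => 1 / lam i) * Uᵀ * (U * Matrix.diagonal lam * Uᵀ)
        = U * (Matrix.diagonal (fun i => 1 / lam i) * (Uᵀ * U) * Matrix.diagonal lam) * Uᵀ := by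
          simp only [Matrix.mul_assoc]
      _ = 1 := by
          rw [hU1, Matrix.mul_one, Matrix.diagonal_mul_diagonal]
          have e : (fun i => 1 / lam i * lam i) = fun _ : Fin n => (1 : ℝ) := by
            funext i
            exact one_div_mul_cancel (hl0 i).ne'
          rw [e, Matrix.diagonal_one, Matrix.mul_one, hU2]
  have hAAi : A * Ai = 1 := mul_eq_one_comm.1 hAiA
  have hAiT : Aiᵀ = Ai := by
    rw [hAi, Matrix.transpose_mul, Matrix.transpose_mul, Matrix.transpose_transpose,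
      Matrix.diagonal_transpose, Matrix.mul_assoc]
  have hleft : q ^ 2 * dL (κ * t) A D M T ≤
      N3 (U * Matrix.diagonal (fun i => r (t * lam i) / lam i) * Uᵀ) D D T T := by
    unfold dL
    rw [← N3_smul1]
    refine N3_mono1 ?_ hD hD T
    have p1 : (U * Matrix.diagonal (fun i => (r (t * lam i) - q ^ 2 * (1 + κ * (t * lam i)))
        / lam i) * Uᵀ).PosSemidef := by
      have p2 : (Matrix.diagonal (fun i => (r (t * lam i) - q ^ 2 * (1 + κ * (t * lam i)))
          / lam i)).PosSemidef := (Matrix.posSemidef_diagonal_iff).2 fun i =>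
        div_nonneg (sub_nonneg.2 (hr _ (mul_pos ht (hl0 i)) (hlx i))) (hl0 i).le
      have p3 := p2.mul_mul_conjTranspose_same U
      rwa [Matrix.conjTranspose_eq_transpose_of_trivial] at p3
    have p4 := (inv_ge hA.posSemidef hAiA hAAi hAiT hM).smul (sq_nonneg q)
    have p5 := p1.add p4
    have e1 : U * Matrix.diagonal (fun i => (r (t * lam i) - q ^ 2 * (1 + κ * (t * lam i)))
        / lam i) * Uᵀ = U * Matrix.diagonal (fun i => r (t * lam i) / lam i) * Uᵀ
          - q ^ 2 • (Ai + (κ * t) • (1 : Mat n)) := by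
      have e2 : (κ * t) • (1 : Mat n) = U * Matrix.diagonal (fun _ => κ * t) * Uᵀ := by
        rw [← Matrix.smul_one_eq_diagonal, Matrix.mul_smul, Matrix.mul_one, Matrix.smul_mul, hU2]
      rw [hAi, e2, ← Matrix.add_mul, ← Matrix.mul_add, Matrix.diagonal_add, ← Matrix.smul_mul,
        ← Matrix.mul_smul, ← Matrix.sub_mul, ← Matrix.mul_sub, ← Matrix.diagonal_smul,
        Matrix.diagonal_sub]
      congr 3
      funext i
      simp only [Pi.smul_apply, smul_eq_mul]
      have := (hl0 i).ne'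
      field_simp
    rw [e1] at p5
    have e3 : U * Matrix.diagonal (fun i => r (t * lam i) / lam i) * Uᵀ
        - q ^ 2 • (Ai + (κ * t) • (1 : Mat n)) + q ^ 2 • (Ai - ((2 : ℝ) • M - M * A * M)) =
        U * Matrix.diagonal (fun i => r (t * lam i) / lam i) * Uᵀ
        - q ^ 2 • ((2 : ℝ) • M - M * A * M + (κ * t) • (1 : Mat n)) := by
      simp only [smul_add, smul_sub]
      abel
    rw [e3] at p5
    exact p5
  -- the right side
  obtain ⟨D1, hD1⟩ : ∃ D1 : Mat n, D1 = Uᵀ * D * U := ⟨_, rfl⟩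
  have hDs : ∀ i j, D i j = D j i := by
    intro i j
    have := congrFun (congrFun hD.1 i) j
    rw [Matrix.conjTranspose_apply, star_trivial] at this
    exact this.symm
  have hD1s : ∀ i j, D1 i j = D1 j i := by
    have e : D1ᵀ = D1 := by
      have hDt : Dᵀ = D := by ext i j; exact hDs j i
      rw [hD1, Matrix.transpose_mul, Matrix.transpose_mul, Matrix.transpose_transpose, hDt,
        Matrix.mul_assoc]
    intro i j
    conv_lhs => rw [← e]
    rfl
  have hDhat : L * A * D * (L * A)ᵀ = Matrix.diagonal d * D1 * Matrix.diagonal d := by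
    rw [hLA, Matrix.transpose_mul, Matrix.transpose_transpose, Matrix.diagonal_transpose, hD1]
    simp only [Matrix.mul_assoc]
  have hr1 : ((Matrix.diagonal (fun i => σ (t * lam i)) * (L * A * D * (L * A)ᵀ)) ^ 2).trace =
      ((Matrix.diagonal (fun i => lam i * σ (t * lam i)) * D1) ^ 2).trace := by
    have hs2 : ∀ i j, (L * A * D * (L * A)ᵀ) i j = d i * D1 i j * d j := by
      intro i j
      rw [hDhat, Matrix.mul_diagonal, Matrix.diagonal_mul]
    rw [trace_diag_sq _ _ (fun i j => by rw [hs2, hs2, hD1s i j]; ring),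
      trace_diag_sq _ _ hD1s]
    refine Finset.sum_congr rfl fun i _ => Finset.sum_congr rfl fun j _ => ?_
    rw [hs2, ← hd2 i, ← hd2 j]
    ring
  have hr2 := trace_sq_mono (d := fun i => lam i * σ (t * lam i))
    (d' := fun i => (2 * q) * (lam i * (1 - κ' * (t * lam i))))
    (fun i => mul_nonneg (hl0 i).le (hσ0 _ (mul_pos ht (hl0 i)) (hlx i))) (fun i => by
      have h2 := hσ (t * lam i) (mul_pos ht (hl0 i)) (hlx i)
      calc lam i * σ (t * lam i) ≤ lam i * (2 * q * (1 - κ' * (t * lam i))) :=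
            mul_le_mul_of_nonneg_left h2 (hl0 i).le
        _ = _ := by ring) hD1s
  have hr3 : ((Matrix.diagonal (fun i => (2 * q) * (lam i * (1 - κ' * (t * lam i)))) * D1)
      ^ 2).trace = q ^ 2 * dR (κ' * t) A D := by
    have e2 : Matrix.diagonal (fun i => (2 * q) * (lam i * (1 - κ' * (t * lam i)))) * D1 =
        (2 * q) • (Uᵀ * ((A - (κ' * t) • (A * A)) * D) * U) := by
      have e3 : Matrix.diagonal (fun i => (2 * q) * (lam i * (1 - κ' * (t * lam i)))) =
          (2 * q) • (Uᵀ * (A - (κ' * t) • (A * A)) * U) := by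
        have e4 : Uᵀ * (A * A) * U = Matrix.diagonal lam * Matrix.diagonal lam := by
          rw [← hcov]
          calc Uᵀ * (A * A) * U = Uᵀ * A * (U * Uᵀ) * A * U := by
                rw [hU2, Matrix.mul_one]; simp only [Matrix.mul_assoc]
            _ = _ := by simp only [Matrix.mul_assoc]
        rw [Matrix.mul_sub, Matrix.sub_mul, Matrix.mul_smul, Matrix.smul_mul, hcov, e4,
          Matrix.diagonal_mul_diagonal]
        ext i j
        simp only [Matrix.smul_apply, Matrix.sub_apply, Matrix.diagonal_apply, smul_eq_mul]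
        split_ifs <;> ring
      rw [e3, Matrix.smul_mul, hD1]
      congr 1
      calc Uᵀ * (A - (κ' * t) • (A * A)) * U * (Uᵀ * D * U)
          = Uᵀ * (A - (κ' * t) • (A * A)) * (U * Uᵀ) * D * U := by
            simp only [Matrix.mul_assoc]
        _ = _ := by rw [hU2, Matrix.mul_one]; simp only [Matrix.mul_assoc]
    rw [e2, smul_pow, Matrix.trace_smul, smul_eq_mul]
    unfold dR
    generalize (A - (κ' * t) • (A * A)) * D = N
    have e5 : (Uᵀ * N * U) ^ 2 = Uᵀ * N ^ 2 * U := by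
      calc (Uᵀ * N * U) ^ 2 = Uᵀ * N * (U * Uᵀ) * N * U := by
            simp only [pow_two, Matrix.mul_assoc]
        _ = _ := by
            rw [hU2, Matrix.mul_one]
            simp only [pow_two, Matrix.mul_assoc]
    rw [e5, Matrix.trace_mul_comm, ← Matrix.mul_assoc, hU2, Matrix.one_mul]
    ring
  rw [hr1] at h1
  rw [hr3] at hr2
  have h9 : q ^ 2 * dL (κ * t) A D M T ≤ q ^ 2 * dR (κ' * t) A D :=
    hleft.trans (h1.trans hr2)
  exact le_of_mul_le_mul_left h9 (pow_pos hq 2)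

end Vale.Agent.P254.Eq630
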