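import Vale.Agent.P254.SP.H72.Iface
import Vale.Agent.P254.SP.H151.Top0

/-! P254, equality case of the `(SP_0)` line (helper630): glue between `StmtStab`, `StmtLim`,
`StmtPos` and the limit statement `StmtLimT` used by the second half (helper351). -/

set_option autoImplicit false

open MeasureTheory Matrix Filter Topology

namespace Vale.Agent.P254.Eq630

open Vale.Agent.P227.M Vale.Agent.P254.S Vale.Agent.P254.SP Vale.Agent.P254.S151

/-! ### one-variable facts -/

namespace One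

variable (P : F1)

theorem t_cont : Continuous P.t :=
  continuous_iff_continuousAt.2 fun s => (P.ht s).continuousAt

theorem r_cont : Continuous P.r :=
  continuous_iff_continuousAt.2 fun s => (P.hr s).continuousAt

/-- `|r s - r 0| ≤ |s| / 2` -/
theorem r_lip (x y : ℝ) : |P.r x - P.r y| ≤ 1 / 2 * |x - y| := by
  have h := Convex.norm_image_sub_le_of_norm_hasDerivWithin_le (f := P.r) (f' := P.r')
    (s := Set.univ) (x := y) (y := x) (C := 1 / 2) (fun s _ => (P.hr s).hasDerivWithinAt)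
    (fun s _ => by
      rw [Real.norm_eq_abs, abs_of_pos (P.r'_pos s)]
      exact (P.r'_lt s).le) convex_univ (Set.mem_univ _) (Set.mem_univ _)
  simpa [Real.norm_eq_abs] using h

theorem r_bound (s : ℝ) : |P.r s| ≤ |P.r 0| + 1 / 2 * |s| := by
  have h := r_lip P s 0
  rw [sub_zero] at h
  have h2 : |P.r s| ≤ |P.r s - P.r 0| + |P.r 0| := by
    have := abs_add_le (P.r s - P.r 0) (P.r 0)
    rwa [sub_add_cancel] at this
  linarith

/-- `|t s| ≤ C (1 + s²)` -/
theorem t_bound : ∃ C : ℝ, 0 ≤ C ∧ ∀ s, |P.t s| ≤ C * (1 + s ^ 2) := by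
  refine ⟨3 / 2 + |P.r 0| + 1 / 2, by positivity, fun s => ?_⟩
  have h1 := P.model1 s
  have h2 : P.t s = 1 + s * P.r s - P.r' s := by linarith
  have h3 := r_bound P s
  have h4 : |P.t s| ≤ 1 + |s| * |P.r s| + 1 / 2 := by
    rw [h2]
    calc |1 + s * P.r s - P.r' s| ≤ |1 + s * P.r s| + |P.r' s| := abs_sub _ _
      _ ≤ (|1| + |s * P.r s|) + |P.r' s| := by gcongr; exact abs_add_le _ _
      _ ≤ 1 + |s| * |P.r s| + 1 / 2 := by
        rw [abs_one, abs_mul, abs_of_pos (P.r'_pos s)]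
        linarith [(P.r'_lt s).le]
  have h5 : |s| * |P.r s| ≤ |s| * (|P.r 0| + 1 / 2 * |s|) :=
    mul_le_mul_of_nonneg_left h3 (abs_nonneg _)
  have h6 : |s| ^ 2 = s ^ 2 := sq_abs s
  have h7 : |s| ≤ 1 + s ^ 2 := by nlinarith [sq_nonneg (|s| - 1), abs_nonneg s]
  have h8 : 0 ≤ |P.r 0| := abs_nonneg _
  nlinarith [mul_le_mul_of_nonneg_right h7 h8, sq_nonneg s]

theorem t_mono : StrictMono P.t := by
  refine strictMono_of_deriv_pos fun s => ?_
  rw [(P.ht s).deriv]
  exact P.L_pos s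

theorem L_mono : StrictMono P.L := by
  refine strictMono_of_deriv_pos fun s => ?_
  rw [(P.hL s).deriv]
  exact P.L'_pos s

theorem t_ge {s : ℝ} (hs : 0 ≤ s) : P.t 0 + P.L 0 * s ≤ P.t s := by
  have h := Convex.mul_sub_le_image_sub_of_le_deriv (f := P.t) (D := Set.Icc 0 s)
    (convex_Icc 0 s) (t_cont P).continuousOn
    (fun x _ => (P.ht x).differentiableAt.differentiableWithinAt) (C := P.L 0)
    (fun x hx => by
      rw [(P.ht x).deriv]
      rw [interior_Icc] at hx
      exact (L_mono P).monotone hx.1.le) 0 (Set.left_mem_Icc.2 hs) s (Set.right_mem_Icc.2 hs) hs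
  linarith [mul_comm (P.L 0) s, h, sub_zero s ▸ h]

theorem t_top : Tendsto P.t atTop atTop := by
  refine tendsto_atTop_mono' atTop (f₁ := fun s => P.t 0 + P.L 0 * s) ?_ ?_
  · filter_upwards [eventually_ge_atTop 0] with s hs using t_ge P hs
  · exact tendsto_atTop_add_const_left _ _ (tendsto_id.const_mul_atTop (P.L_pos 0))

theorem L_eq (s : ℝ) : P.L s = Real.exp (P.t s - s ^ 2 / 2 - Real.log (2 * Real.pi) / 2) := by
  rw [← P.log_L, Real.exp_log (P.L_pos s)]

/-- `t → 0` at `-∞` -/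
theorem t_bot : Tendsto P.t atBot (𝓝 0) := by
  obtain ⟨K, hK⟩ : ∃ K, K = Real.exp (P.t 0 - Real.log (2 * Real.pi) / 2) := ⟨_, rfl⟩
  have hK0 : 0 < K := by rw [hK]; exact Real.exp_pos _
  have h1 : ∀ s ≤ 0, |P.t s| ≤ (|P.r 0| + 1 / 2 * |s|) * (K * Real.exp (-(s ^ 2 / 2))) := by
    intro s hs
    have h2 : P.L s ≤ K * Real.exp (-(s ^ 2 / 2)) := by
      rw [L_eq, hK, ← Real.exp_add]
      refine Real.exp_le_exp.2 ?_
      have := (t_mono P).monotone hs
      linarith
    rw [← P.r_eq s, abs_mul, abs_of_pos (P.L_pos s)]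
    exact mul_le_mul (r_bound P s) h2 (P.L_pos s).le (by positivity)
  have h3 : Tendsto (fun s : ℝ => (|P.r 0| + 1 / 2 * |s|) * (K * Real.exp (-(s ^ 2 / 2)))) atBot
      (𝓝 0) := by
    have e1 : Tendsto (fun s : ℝ => Real.exp (-(s ^ 2 / 2))) atBot (𝓝 0) := by
      refine Real.tendsto_exp_neg_atTop_nhds_zero.comp ?_
      refine Tendsto.atTop_div_const (by norm_num) ?_
      exact (tendsto_pow_atTop (n := 2) two_ne_zero).comp tendsto_abs_atBot_atTop |>.congr
        fun s => by simp only [Function.comp_apply, sq_abs]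
    have e2 : Tendsto (fun s : ℝ => |s| * Real.exp (-(s ^ 2 / 2))) atBot (𝓝 0) := by
      have e3 : Tendsto (fun x : ℝ => x ^ (1 : ℕ) * Real.exp (-x)) atTop (𝓝 0) :=
        Real.tendsto_pow_mul_exp_neg_atTop_nhds_zero 1
      have e4 := (e3.comp tendsto_abs_atBot_atTop).const_mul (Real.exp (1 / 2))
      rw [mul_zero] at e4
      refine squeeze_zero (fun s => by positivity) (fun s => ?_) e4
      simp only [Function.comp_apply, pow_one]
      rw [← mul_assoc, mul_comm (Real.exp (1 / 2)) |s|, mul_assoc, ← Real.exp_add]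
      refine mul_le_mul_of_nonneg_left (Real.exp_le_exp.2 ?_) (abs_nonneg _)
      nlinarith [sq_nonneg (|s| - 1), sq_abs s]
    have e5 := (e1.const_mul (|P.r 0| * K)).add (e2.const_mul (1 / 2 * K))
    rw [mul_zero, mul_zero, add_zero] at e5
    refine e5.congr fun s => ?_
    ring
  have h4 : Tendsto (fun s => |P.t s|) atBot (𝓝 0) := by
    refine squeeze_zero' (Eventually.of_forall fun s => abs_nonneg _) ?_ h3
    filter_upwards [eventually_le_atBot 0] with s hs using h1 s hs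
  exact (tendsto_zero_iff_abs_tendsto_zero _).2 h4

/-- `t` is onto `(0,∞)` -/
theorem t_surj {y : ℝ} (hy : 0 < y) : ∃ s, P.t s = y := by
  have h1 : ∃ a, P.t a < y := ((t_bot P).eventually (gt_mem_nhds hy)).exists
  have h2 : ∃ b, y ≤ P.t b := ((t_top P).eventually_ge_atTop y).exists
  obtain ⟨a, ha⟩ := h1
  obtain ⟨b, hb⟩ := h2
  have h3 := intermediate_value_univ a b (t_cont P) (show y ∈ Set.Icc (P.t a) (P.t b) from ⟨ha.le, hb⟩)
  exact h3

end One

/-! ### the glue -/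

variable {n : ℕ}

/-- the limit map (the form of helper351) -/
noncomputable def TT (tt : ℝ → ℝ) (O : Matrix (Fin n) (Fin n) ℝ) (ε : Fin n → ℝ) (z : E n)
    (i : Fin n) : ℝ := ∑ j, O j i * (ε j * (tt (ε j * ∑ l, O j l * z l) - 1))

/-- the limit statement (note 14483 of helper351) -/
def StmtLimT (tt : ℝ → ℝ) : Prop := ∀ (n : ℕ) (V : ℕ → E n → ℝ) (c C : ℕ → ℝ),
  (∀ k, Reg (V k) (c k) (C k)) →
  Tendsto (fun k => entV (V k) - 1 / 2 * Real.log (covV (V k)).det - n) atTop (𝓝 0) →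
  ∃ (sub : ℕ → ℕ) (A : ℕ → Matrix (Fin n) (Fin n) ℝ) (φ : ℕ → E n → ℝ), StrictMono sub ∧
    (∀ k, (A k).det ≠ 0) ∧ (∀ k, ∃ c' C', Reg (fun x => V (sub k) (lin (A k) x)) c' C') ∧
    (∀ k, ∃ a b M κ, BP (φ k) (fun x => V (sub k) (lin (A k) x)) a b M κ) ∧
    ∃ (O : Matrix (Fin n) (Fin n) ℝ) (ε : Fin n → ℝ), O * Oᵀ = 1 ∧ (∀ i, ε i = 1 ∨ ε i = -1) ∧
      ∀ i, Tendsto (fun k => Ex Q (fun z => (gradient (φ k) z i
        - Ex Q (fun z => gradient (φ k) z i) - TT tt O ε z i) ^ 2)) atTop (𝓝 0)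

/-- `2 ent - log det cov` is invariant under a linear change of the target -/
theorem two_ent_lin {A : Matrix (Fin n) (Fin n) ℝ} (hA : A.det ≠ 0) {V : E n → ℝ}
    {c C c' C' : ℝ} (hV : Reg V c C) (hW : Reg (fun y => V (lin A y)) c' C')
    (hpd : (covV fun y => V (lin A y)).PosDef) :
    2 * entV (fun y => V (lin A y)) - Real.log (covV fun y => V (lin A y)).det =
      2 * entV V - Real.log (covV V).det := by
  have h2 := entV_lin hA hV
  have h3 : Real.log (covV V).det =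
      2 * Real.log |A.det| + Real.log (covV fun y => V (lin A y)).det := by
    rw [covV_lin hA hW, det_mul, det_mul, det_transpose]
    have e : A.det * (covV fun y => V (lin A y)).det * A.det =
        |A.det| ^ 2 * (covV fun y => V (lin A y)).det := by
      rw [sq_abs]; ring
    rw [e, Real.log_mul (pow_ne_zero 2 (abs_ne_zero.2 hA)) hpd.det_pos.ne', Real.log_pow]
    push_cast
    ring
  rw [h2, h3]
  ring

theorem ExQ_nonneg {f : E n → ℝ} (h : ∀ z, 0 ≤ f z) : 0 ≤ Ex Q f := by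
  rw [Ex_eq]
  exact integral_nonneg h

theorem nlin_nonneg (U : E n → Matrix (Fin n) (Fin n) ℝ) (s : E n → Fin n → ℝ) :
    0 ≤ E72.nlin U s :=
  ExQ_nonneg fun _ => Finset.sum_nonneg fun _ _ => Finset.sum_nonneg fun _ _ => sq_nonneg _

theorem dfK_nonneg (U : E n → Matrix (Fin n) (Fin n) ℝ) (s : E n → Fin n → ℝ) :
    0 ≤ E72.dfK U s :=
  Finset.sum_nonneg fun _ _ => Finset.sum_nonneg fun _ _ => sq_nonneg _

/-- growth of the limit coordinates -/
theorem gr_t (P : F1) (w : Fin n → ℝ) : Gr fun z : E n => P.t (∑ l, w l * z l) := by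
  obtain ⟨C, hC0, hC⟩ := One.t_bound P
  have h1 : Gr fun z : E n => ∑ l, w l * z l := Gr.sum _ fun l _ => (Gr.coord l).const_mul (w l)
  have h2 : Gr fun z : E n => C * (1 + (∑ l, w l * z l) ^ 2) :=
    (((Gr.const 1).add (h1.pow 2))).const_mul C
  obtain ⟨hc, B, k, hB, hb⟩ := h2
  refine ⟨(One.t_cont P).comp h1.cont, B, k, hB, fun z => ?_⟩
  refine (hC _).trans ((le_abs_self _).trans ?_)
  exact hb z

/-- **glue** -/
theorem stmtLimT_of {P : F1} (hL : E72.StmtLim P) (hS : E72.StmtStab P) (hP : StmtPos)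
    (hPush : StmtPush) : StmtLimT P.t := by
  intro n V c C hV hD
  choose A c' C' hA hW φ a b M κ U s hφ hs hg using fun k => hP P n (V k) (c k) (C k) (hV k)
  obtain ⟨c0, hc0, hst⟩ := hS n
  have hpd : ∀ k, (covV fun y => V k (lin (A k) y)).PosDef := fun k =>
    covV_posDef (hφ k) (hPush n (φ k) _ (a k) (b k) (M k) (κ k) (hφ k)).1
  have h1 : ∀ k, c0 * (E72.nlin (U k) (s k) + min 1 (E72.dfK (U k) (s k))) ≤
      2 * (entV (V k) - 1 / 2 * Real.log (covV (V k)).det - n) := by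
    intro k
    have e1 := hst (φ k) _ (c' k) (C' k) (a k) (b k) (M k) (κ k) (hW k) (hφ k) (U k) (s k)
      (hs k) (hg k)
    have e2 := two_ent_lin (hA k) (hV k) (hW k) (hpd k)
    linarith
  have h2 : Tendsto (fun k => (2 / c0) * (entV (V k) - 1 / 2 * Real.log (covV (V k)).det - n))
      atTop (𝓝 0) := by
    have := hD.const_mul (2 / c0)
    rwa [mul_zero] at this
  have h3 : ∀ k, E72.nlin (U k) (s k) + min 1 (E72.dfK (U k) (s k)) ≤
      (2 / c0) * (entV (V k) - 1 / 2 * Real.log (covV (V k)).det - n) := by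
    intro k
    rw [div_mul_eq_mul_div, le_div_iff₀ hc0, mul_comm]
    exact h1 k
  have h4 : Tendsto (fun k => E72.nlin (U k) (s k)) atTop (𝓝 0) := by
    refine squeeze_zero (fun k => nlin_nonneg _ _) (fun k => ?_) h2
    have := le_min zero_le_one (dfK_nonneg (U k) (s k))
    linarith [h3 k]
  have h5 : Tendsto (fun k => min 1 (E72.dfK (U k) (s k))) atTop (𝓝 0) := by
    refine squeeze_zero (fun k => le_min zero_le_one (dfK_nonneg _ _)) (fun k => ?_) h2
    linarith [h3 k, nlin_nonneg (U k) (s k)]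
  have h6 : Tendsto (fun k => E72.dfK (U k) (s k)) atTop (𝓝 0) := by
    have h7 : ∀ᶠ k in atTop, min 1 (E72.dfK (U k) (s k)) < 1 :=
      h5.eventually (gt_mem_nhds one_pos)
    refine h5.congr' ?_
    filter_upwards [h7] with k hk
    refine min_eq_right ?_
    by_contra hlt
    rw [not_le] at hlt
    rw [min_eq_left hlt.le] at hk
    exact lt_irrefl _ hk
  obtain ⟨O, ψ, hO, hψ, hlim⟩ := hL n φ (fun k y => V k (lin (A k) y)) a b M κ U s hφ hs h4 h6
  have hO' : Oᵀ * O = 1 := mul_eq_one_comm.1 hO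
  refine ⟨ψ, fun k => A (ψ k), fun k => φ (ψ k), hψ, fun k => hA _, fun k => ⟨_, _, hW (ψ k)⟩,
    fun k => ⟨_, _, _, _, hφ (ψ k)⟩, O, fun _ => 1, hO, fun _ => Or.inl rfl, fun i => ?_⟩
  have hsum : Tendsto (fun k => ∑ j, Ex Q (fun z => ((∑ l, O j l * pd l (φ (ψ k)) z)
      - Ex Q (fun z => ∑ l, O j l * pd l (φ (ψ k)) z) - (P.t (∑ l, O j l * z l) - 1)) ^ 2))
      atTop (𝓝 0) := by
    have := tendsto_finsetSum (Finset.univ : Finset (Fin n)) fun j _ => hlim j
    simpa using this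
  refine squeeze_zero (fun k => ExQ_nonneg fun _ => sq_nonneg _) (fun k => ?_) hsum
  have hgp : ∀ l, Gr (pd l (φ (ψ k))) := fun l => gr_pd (hφ (ψ k)) l
  have hgo : ∀ j, Gr (fun z => ∑ l, O j l * pd l (φ (ψ k)) z) := fun j =>
    Gr.sum _ fun l _ => (hgp l).const_mul _
  have hgu : ∀ j, Gr (fun z => ((∑ l, O j l * pd l (φ (ψ k)) z)
      - Ex Q (fun z => ∑ l, O j l * pd l (φ (ψ k)) z) - (P.t (∑ l, O j l * z l) - 1))) := fun j =>
    ((hgo j).sub (Gr.const _)).sub ((gr_t P (O j)).sub (Gr.const 1))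
  have hEl : ∀ j, Ex Q (fun z => ∑ l, O j l * pd l (φ (ψ k)) z) =
      ∑ l, O j l * Ex Q (pd l (φ (ψ k))) := by
    intro j
    rw [Ex_eq, integral_finsetSum _ fun l _ => (int_gr (hgp l)).const_mul (O j l)]
    refine Finset.sum_congr rfl fun l _ => ?_
    rw [integral_const_mul, Ex_eq]
  have hOO : ∀ p : Fin n → ℝ, ∑ j, O j i * ∑ l, O j l * p l = p i := by
    intro p
    have h := congrFun (congrArg (fun N : Matrix (Fin n) (Fin n) ℝ => N *ᵥ p) hO') i
    simp only [one_mulVec] at h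
    rw [← mulVec_mulVec] at h
    rw [← h]
    simp only [mulVec, dotProduct, transpose_apply]
  have hpt : ∀ z : E n, gradient (φ (ψ k)) z i - Ex Q (fun z => gradient (φ (ψ k)) z i)
      - TT P.t O (fun _ => 1) z i = ∑ j, O j i * ((∑ l, O j l * pd l (φ (ψ k)) z)
      - Ex Q (fun z => ∑ l, O j l * pd l (φ (ψ k)) z) - (P.t (∑ l, O j l * z l) - 1)) := by
    intro z
    have e1 := hOO fun l => pd l (φ (ψ k)) z
    have e2 := hOO fun l => Ex Q (pd l (φ (ψ k)))
    simp only [gradient_apply]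
    unfold TT
    simp only [hEl, mul_sub, Finset.sum_sub_distrib, one_mul, e1, mul_one]
    rw [e2]
  rw [Ex_eq]
  have e3 : ∀ j, Ex Q (fun z => ((∑ l, O j l * pd l (φ (ψ k)) z)
      - Ex Q (fun z => ∑ l, O j l * pd l (φ (ψ k)) z) - (P.t (∑ l, O j l * z l) - 1)) ^ 2) =
      ∫ z, ((∑ l, O j l * pd l (φ (ψ k)) z)
      - Ex Q (fun z => ∑ l, O j l * pd l (φ (ψ k)) z) - (P.t (∑ l, O j l * z l) - 1)) ^ 2 ∂(gm n) :=
    fun j => Ex_eq _
  rw [Finset.sum_congr rfl fun j _ => e3 j,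
    ← integral_finsetSum _ fun j _ => int_gr ((hgu j).pow 2)]
  refine integral_mono_of_nonneg (ae_of_all _ fun z => sq_nonneg _)
    (integrable_finsetSum _ fun j _ => int_gr ((hgu j).pow 2)) (ae_of_all _ fun z => ?_)
  simp only
  rw [hpt z]
  have hcs := Finset.sum_mul_sq_le_sq_mul_sq (Finset.univ : Finset (Fin n)) (fun j => O j i)
    (fun j => (∑ l, O j l * pd l (φ (ψ k)) z)
      - Ex Q (fun z => ∑ l, O j l * pd l (φ (ψ k)) z) - (P.t (∑ l, O j l * z l) - 1))
  have hone : ∑ j, O j i ^ 2 = 1 := by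
    have h := congrFun (congrFun hO' i) i
    simp only [mul_apply, transpose_apply, one_apply_eq] at h
    rw [← h]
    exact Finset.sum_congr rfl fun j _ => sq _
  rwa [hone, one_mul] at hcs

/-- the stability inequality contains the inequality -/
theorem stmtFin_of_stab {P : F1} (hS : E72.StmtStab P) : StmtFin P := by
  intro n φ V c C a b M κ hV hφ U s hs hg
  obtain ⟨c0, hc0, hst⟩ := hS n
  have e1 := hst φ V c C a b M κ hV hφ U s hs hg
  have e2 : 0 ≤ c0 * (E72.nlin U s + min 1 (E72.dfK U s)) :=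
    mul_nonneg hc0.le (add_nonneg (nlin_nonneg _ _) (le_min zero_le_one (dfK_nonneg _ _)))
  linarith

end Vale.Agent.P254.Eq630
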